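import Mathlib

/-! Elementary analysis of the cavity map `φ(u) = artanh(θ tanh u)` and of the path factor
`g(u) = (1 - tanh² u) / (1 - θ² tanh² u)`. -/

open MeasureTheory Filter

noncomputable section

namespace Vale.Agent.Lib.P161S

/-- The message map of the Ising model on a tree. -/
def phi (θ u : ℝ) : ℝ := Real.artanh (θ * Real.tanh u)

/-- The path factor. -/
def gg (θ u : ℝ) : ℝ := (1 - Real.tanh u ^ 2) / (1 - θ ^ 2 * Real.tanh u ^ 2)

theorem tanh_sq_lt_one (u : ℝ) : Real.tanh u ^ 2 < 1 := by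
  have h1 := Real.tanh_lt_one u
  have h2 := Real.neg_one_lt_tanh u
  nlinarith

theorem abs_tanh_lt_one (u : ℝ) : |Real.tanh u| < 1 :=
  abs_lt.2 ⟨Real.neg_one_lt_tanh u, Real.tanh_lt_one u⟩

theorem continuous_tanh : Continuous Real.tanh := by
  have : Real.tanh = fun x => Real.sinh x / Real.cosh x := by
    funext x
    exact Real.tanh_eq_sinh_div_cosh x
  rw [this]
  exact Real.continuous_sinh.div Real.continuous_cosh fun x => (Real.cosh_pos x).ne'

theorem measurable_tanh : Measurable Real.tanh := continuous_tanh.measurable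

theorem measurable_artanh : Measurable Real.artanh := by
  unfold Real.artanh
  fun_prop

theorem measurable_phi (θ : ℝ) : Measurable (phi θ) :=
  measurable_artanh.comp (measurable_tanh.const_mul θ)

theorem measurable_gg (θ : ℝ) : Measurable (gg θ) := by
  unfold gg
  exact ((measurable_const.sub (measurable_tanh.pow_const 2))).div
    (measurable_const.sub ((measurable_tanh.pow_const 2).const_mul _))

section Theta

variable {θ : ℝ} (h0 : 0 ≤ θ) (h1 : θ < 1)
include h0 h1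

theorem den_pos (u : ℝ) : 0 < 1 - θ ^ 2 * Real.tanh u ^ 2 := by
  have h2 := tanh_sq_lt_one u
  have h3 : θ ^ 2 < 1 := by nlinarith
  have h4 := sq_nonneg (Real.tanh u)
  nlinarith

theorem gg_nonneg (u : ℝ) : 0 ≤ gg θ u :=
  div_nonneg (by linarith [tanh_sq_lt_one u]) (den_pos h0 h1 u).le

theorem gg_le_sub (u : ℝ) : gg θ u ≤ 1 - (1 - θ ^ 2) * Real.tanh u ^ 2 := by
  unfold gg
  rw [div_le_iff₀ (den_pos h0 h1 u)]
  have h3 : 0 ≤ θ ^ 2 := sq_nonneg θ
  have h4 : θ ^ 2 ≤ 1 := by nlinarith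
  have h5 := sq_nonneg (Real.tanh u)
  have h6 : 0 ≤ (1 - θ ^ 2) * θ ^ 2 * (Real.tanh u ^ 2) ^ 2 :=
    mul_nonneg (mul_nonneg (by linarith) h3) (sq_nonneg _)
  nlinarith

theorem gg_le_one (u : ℝ) : gg θ u ≤ 1 := by
  have h2 := gg_le_sub h0 h1 u
  have h4 : θ ^ 2 ≤ 1 := by nlinarith
  have h5 := sq_nonneg (Real.tanh u)
  nlinarith [mul_nonneg (sub_nonneg.2 h4) h5]

theorem gg_sq_le (u : ℝ) : gg θ u ^ 2 ≤ 1 - (1 - θ ^ 2) * Real.tanh u ^ 2 := by
  have h2 := gg_nonneg h0 h1 u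
  have h3 := gg_le_one h0 h1 u
  have h4 := gg_le_sub h0 h1 u
  nlinarith

theorem artanh_arg_mem (u : ℝ) : θ * Real.tanh u ∈ Set.Ioo (-1 : ℝ) 1 := by
  have h2 := abs_tanh_lt_one u
  have h3 : |θ * Real.tanh u| < 1 := by
    rw [abs_mul, abs_of_nonneg h0]
    nlinarith [abs_nonneg (Real.tanh u)]
  exact abs_lt.1 h3

theorem tanh_phi (u : ℝ) : Real.tanh (phi θ u) = θ * Real.tanh u :=
  Real.tanh_artanh (artanh_arg_mem h0 h1 u)

theorem phi_neg (u : ℝ) : phi θ (-u) = -phi θ u := by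
  apply Real.tanh_injective
  rw [tanh_phi h0 h1, Real.tanh_neg, Real.tanh_neg, tanh_phi h0 h1]
  ring

theorem phi_nonneg_of_nonneg {u : ℝ} (hu : 0 ≤ u) : 0 ≤ phi θ u := by
  apply Real.artanh_nonneg
  apply mul_nonneg h0
  rw [Real.tanh_eq_sinh_div_cosh]
  exact div_nonneg (Real.sinh_nonneg_iff.2 hu) (Real.cosh_pos u).le

/-- The maximal size of a message. -/
def uMax (θ : ℝ) : ℝ := Real.artanh θ

omit h1 in
theorem uMax_nonneg : 0 ≤ uMax θ := Real.artanh_nonneg h0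

theorem abs_phi_le (u : ℝ) : |phi θ u| ≤ uMax θ := by
  have key : ∀ v : ℝ, phi θ v ≤ uMax θ := by
    intro v
    have h2 := artanh_arg_mem h0 h1 v
    have h3 : θ * Real.tanh v ≤ θ := by
      have := Real.tanh_lt_one v
      nlinarith
    exact Real.artanh_le_artanh h2.1 h1 h3
  rw [abs_le]
  constructor
  · have := key (-u)
    rw [phi_neg h0 h1] at this
    linarith
  · exact key u

omit h0 h1 in
/-- `artanh s ≥ s / 2` on `[0, 1)`. -/
theorem half_le_artanh {s : ℝ} (h2 : 0 ≤ s) (h3 : s < 1) : s / 2 ≤ Real.artanh s := by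
  rw [Real.artanh_eq_half_log ⟨by linarith, h3.le⟩]
  have hpos : 0 < (1 + s) / (1 - s) := div_pos (by linarith) (by linarith)
  have h4 := Real.one_sub_inv_le_log_of_pos hpos
  have h5 : 1 - ((1 + s) / (1 - s))⁻¹ = 2 * s / (1 + s) := by
    have : 1 - s ≠ 0 := by linarith
    have : 1 + s ≠ 0 := by linarith
    field_simp
    ring
  rw [h5] at h4
  have h6 : s ≤ 2 * s / (1 + s) := by
    rw [le_div_iff₀ (by linarith)]
    nlinarith
  linarith

theorem half_le_abs_phi (u : ℝ) : θ * |Real.tanh u| / 2 ≤ |phi θ u| := by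
  have key : ∀ v : ℝ, 0 ≤ v → θ * Real.tanh v / 2 ≤ phi θ v := by
    intro v hv
    have h2 : 0 ≤ Real.tanh v := by
      rw [Real.tanh_eq_sinh_div_cosh]
      exact div_nonneg (Real.sinh_nonneg_iff.2 hv) (Real.cosh_pos v).le
    exact half_le_artanh (mul_nonneg h0 h2) (artanh_arg_mem h0 h1 v).2
  rcases le_total 0 u with hu | hu
  · have h2 : 0 ≤ Real.tanh u := by
      rw [Real.tanh_eq_sinh_div_cosh]
      exact div_nonneg (Real.sinh_nonneg_iff.2 hu) (Real.cosh_pos u).le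
    rw [abs_of_nonneg h2]
    exact (key u hu).trans (le_abs_self _)
  · have h2 := key (-u) (by linarith)
    rw [phi_neg h0 h1, Real.tanh_neg] at h2
    have h3 : Real.tanh u ≤ 0 := by
      have h4 : 0 ≤ Real.tanh (-u) := by
        rw [Real.tanh_eq_sinh_div_cosh]
        exact div_nonneg (Real.sinh_nonneg_iff.2 (by linarith)) (Real.cosh_pos _).le
      rw [Real.tanh_neg] at h4
      linarith
    rw [abs_of_nonpos h3]
    calc θ * -Real.tanh u / 2 ≤ -phi θ u := h2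
      _ ≤ |phi θ u| := neg_le_abs _

end Theta

theorem tanh_sq_eq_one_sub (u : ℝ) : Real.tanh u ^ 2 = 1 - 1 / Real.cosh u ^ 2 := by
  have h := Real.cosh_sq_sub_sinh_sq u
  have hc := (Real.cosh_pos u).ne'
  rw [Real.tanh_eq_sinh_div_cosh]
  field_simp
  nlinarith

theorem tanh_sq_ge_of_one_le {u : ℝ} (hu : 1 ≤ |u|) : Real.tanh 1 ^ 2 ≤ Real.tanh u ^ 2 := by
  rw [tanh_sq_eq_one_sub, tanh_sq_eq_one_sub]
  have h1 : Real.cosh 1 ≤ Real.cosh u := Real.cosh_le_cosh.2 (by simpa using hu)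
  have h2 := Real.cosh_pos 1
  have h3 : 1 / Real.cosh u ^ 2 ≤ 1 / Real.cosh 1 ^ 2 :=
    one_div_le_one_div_of_le (by positivity) (pow_le_pow_left₀ h2.le h1 2)
  linarith

theorem tanh_sq_ge_of_le {u K : ℝ} (hu : |u| ≤ K) :
    u ^ 2 / Real.cosh K ^ 2 ≤ Real.tanh u ^ 2 := by
  have h1 : Real.cosh u ≤ Real.cosh K := Real.cosh_le_cosh.2 (by
    rw [abs_of_nonneg ((abs_nonneg u).trans hu)]
    exact hu)
  have hu0 := Real.cosh_pos u
  have hK0 := Real.cosh_pos K
  have h2 : |u| ≤ |Real.sinh u| := by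
    rw [Real.abs_sinh]
    exact Real.self_le_sinh_iff.2 (abs_nonneg u)
  have h3 : u ^ 2 ≤ Real.sinh u ^ 2 := by
    rw [← sq_abs u, ← sq_abs (Real.sinh u)]
    exact pow_le_pow_left₀ (abs_nonneg u) h2 2
  rw [Real.tanh_eq_sinh_div_cosh, div_pow]
  calc u ^ 2 / Real.cosh K ^ 2 ≤ Real.sinh u ^ 2 / Real.cosh K ^ 2 :=
        div_le_div_of_nonneg_right h3 (by positivity)
    _ ≤ Real.sinh u ^ 2 / Real.cosh u ^ 2 :=
        div_le_div_of_nonneg_left (by positivity) (by positivity)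
          (pow_le_pow_left₀ hu0.le h1 2)

/-- The constant in the averaging lemma. -/
def cT (u : ℝ) : ℝ := min (Real.tanh 1 ^ 2 / (u ^ 2 + 1)) (1 / Real.cosh (2 * u + 1) ^ 2)

theorem tanh_one_pos : 0 < Real.tanh 1 := by
  rw [Real.tanh_eq_sinh_div_cosh]
  exact div_pos (Real.sinh_pos_iff.2 one_pos) (Real.cosh_pos 1)

theorem cT_pos (u : ℝ) : 0 < cT u := by
  unfold cT
  apply lt_min
  · have := tanh_one_pos
    positivity
  · have := Real.cosh_pos (2 * u + 1)
    positivity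

/-- Averaging: adding an independent bounded variable forces a definite value of `tanh²`. -/
theorem tanh_sq_avg {Ω : Type*} [MeasurableSpace Ω] {ν : Measure Ω} [IsProbabilityMeasure ν]
    {X : Ω → ℝ} (hX : Measurable X) {u : ℝ} (hu : 0 ≤ u) (hb : ∀ ω, |X ω| ≤ u) (A : ℝ) :
    cT u * (∫ ω, X ω ^ 2 ∂ν - (∫ ω, X ω ∂ν) ^ 2) ≤ ∫ ω, Real.tanh (A + X ω) ^ 2 ∂ν := by
  have hXi : Integrable X ν := Integrable.of_bound hX.aestronglyMeasurable u
    (Eventually.of_forall fun ω => by simpa using hb ω)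
  have hX2 : ∀ ω, X ω ^ 2 ≤ u ^ 2 := fun ω => by
    rw [← sq_abs]
    exact pow_le_pow_left₀ (abs_nonneg _) (hb ω) 2
  have hX2i : Integrable (fun ω => X ω ^ 2) ν := Integrable.of_bound (hX.pow_const 2).aestronglyMeasurable
    (u ^ 2) (Eventually.of_forall fun ω => by
      rw [Real.norm_eq_abs, abs_of_nonneg (sq_nonneg _)]
      exact hX2 ω)
  have hti : Integrable (fun ω => Real.tanh (A + X ω) ^ 2) ν :=
    Integrable.of_bound ((measurable_tanh.comp (measurable_const.add hX)).pow_const 2).aestronglyMeasurable 1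
      (Eventually.of_forall fun ω => by
        rw [Real.norm_eq_abs, abs_of_nonneg (sq_nonneg _)]
        exact (tanh_sq_lt_one _).le)
  set V := ∫ ω, X ω ^ 2 ∂ν - (∫ ω, X ω ∂ν) ^ 2 with hV
  have hVle : V ≤ u ^ 2 + 1 := by
    have h1 : ∫ ω, X ω ^ 2 ∂ν ≤ ∫ _ω, u ^ 2 ∂ν :=
      integral_mono hX2i (integrable_const _) hX2
    simp only [integral_const, probReal_univ, one_smul] at h1
    nlinarith [sq_nonneg (∫ ω, X ω ∂ν)]
  rcases le_total (u + 1) |A| with hA | hA
  · -- far: `tanh²` is large everywhere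
    have h1 : ∀ ω, Real.tanh 1 ^ 2 ≤ Real.tanh (A + X ω) ^ 2 := by
      intro ω
      apply tanh_sq_ge_of_one_le
      have h2 : |A| ≤ |A + X ω| + |X ω| := by
        have := abs_sub (A + X ω) (X ω)
        simpa using this
      have := hb ω
      linarith
    have h2 : ∫ _ω : Ω, Real.tanh 1 ^ 2 ∂ν ≤ ∫ ω, Real.tanh (A + X ω) ^ 2 ∂ν :=
      integral_mono (integrable_const _) hti h1
    simp only [integral_const, probReal_univ, one_smul] at h2
    refine le_trans ?_ h2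
    have h3 : cT u ≤ Real.tanh 1 ^ 2 / (u ^ 2 + 1) := min_le_left _ _
    have h4 : 0 < u ^ 2 + 1 := by positivity
    by_cases hV0 : 0 ≤ V
    · calc cT u * V ≤ Real.tanh 1 ^ 2 / (u ^ 2 + 1) * (u ^ 2 + 1) :=
            mul_le_mul h3 hVle hV0 (by positivity)
        _ = Real.tanh 1 ^ 2 := by field_simp
    · push Not at hV0
      have := cT_pos u
      have h5 := sq_nonneg (Real.tanh 1)
      nlinarith
  · -- near: `tanh²` is comparable with the square
    have hK : ∀ ω, |A + X ω| ≤ 2 * u + 1 := by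
      intro ω
      have h2 := abs_add_le A (X ω)
      have := hb ω
      linarith
    have h1 : ∀ ω, (A + X ω) ^ 2 / Real.cosh (2 * u + 1) ^ 2 ≤ Real.tanh (A + X ω) ^ 2 :=
      fun ω => tanh_sq_ge_of_le (hK ω)
    have hsq : Integrable (fun ω => (A + X ω) ^ 2) ν := by
      have e : (fun ω => (A + X ω) ^ 2) = fun ω => A ^ 2 + 2 * A * X ω + X ω ^ 2 := by
        funext ω; ring
      rw [e]
      exact ((integrable_const _).add (hXi.const_mul _)).add hX2i
    have h2 : ∫ ω, (A + X ω) ^ 2 / Real.cosh (2 * u + 1) ^ 2 ∂ν ≤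
        ∫ ω, Real.tanh (A + X ω) ^ 2 ∂ν :=
      integral_mono (hsq.div_const _) hti h1
    refine le_trans ?_ h2
    rw [integral_div]
    have e : ∫ ω, (A + X ω) ^ 2 ∂ν = A ^ 2 + 2 * A * ∫ ω, X ω ∂ν + ∫ ω, X ω ^ 2 ∂ν := by
      have e1 : (fun ω => (A + X ω) ^ 2) = fun ω => A ^ 2 + 2 * A * X ω + X ω ^ 2 := by
        funext ω; ring
      have i1 : Integrable (fun _ : Ω => A ^ 2) ν := integrable_const _
      have i2 : Integrable (fun ω => 2 * A * X ω) ν := hXi.const_mul _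
      have e2 := integral_add (i1.add i2) hX2i
      have e3 := integral_add i1 i2
      simp only [Pi.add_apply] at e2 e3
      rw [e1, e2, e3, integral_const_mul]
      simp
    rw [e]
    have hge : V ≤ A ^ 2 + 2 * A * ∫ ω, X ω ∂ν + ∫ ω, X ω ^ 2 ∂ν := by
      rw [hV]
      nlinarith [sq_nonneg (A + ∫ ω, X ω ∂ν)]
    have h3 : cT u ≤ 1 / Real.cosh (2 * u + 1) ^ 2 := min_le_right _ _
    have hc := Real.cosh_pos (2 * u + 1)
    have hcp : 0 < Real.cosh (2 * u + 1) ^ 2 := by positivity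
    rw [div_eq_mul_one_div]
    have hsum0 : 0 ≤ A ^ 2 + 2 * A * ∫ ω, X ω ∂ν + ∫ ω, X ω ^ 2 ∂ν := by
      rw [← e]
      exact integral_nonneg fun ω => sq_nonneg _
    by_cases hV0 : 0 ≤ V
    · calc cT u * V ≤ 1 / Real.cosh (2 * u + 1) ^ 2 * (A ^ 2 + 2 * A * ∫ ω, X ω ∂ν + ∫ ω, X ω ^ 2 ∂ν) :=
            mul_le_mul h3 hge hV0 (by positivity)
        _ = _ := by ring
    · push Not at hV0
      have := cT_pos u
      have h6 : 0 ≤ (A ^ 2 + 2 * A * ∫ ω, X ω ∂ν + ∫ ω, X ω ^ 2 ∂ν) * (1 / Real.cosh (2 * u + 1) ^ 2) := by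
        positivity
      nlinarith

end Vale.Agent.Lib.P161S
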