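import Vale.Agent.Lib.P161S.Analytic
import Vale.Agent.Lib.P161.PC
import Vale.Agent.Lib.P161E.TreeAut

/-! The Ising model with an arbitrary field on a finite part of a tree: cavity recursion
(belief propagation) and the product formula for covariances along a path.

The main tool is pruning: a branch hanging on the single edge `u x` can be replaced by an extra
field `phi (tanh β) h` at `u`, where `tanh h` is the magnetisation of the root of the branch. -/

open Finset
open scoped Classical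

noncomputable section

namespace Vale.Agent.Lib.P161S

open Vale.Agent.Lib.P161 Vale.Agent.Lib.P161E

variable {V : Type*}

/-! ### Elementary hyperbolic facts -/

theorem hasDerivAt_tanh (u : ℝ) : HasDerivAt Real.tanh (1 - Real.tanh u ^ 2) u := by
  have hf : Real.tanh = Real.sinh / Real.cosh := by
    funext x
    exact Real.tanh_eq_sinh_div_cosh x
  have hc := (Real.cosh_pos u).ne'
  have h := (Real.hasDerivAt_sinh u).div (Real.hasDerivAt_cosh u) hc
  rw [← hf] at h
  refine h.congr_deriv ?_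
  rw [Real.tanh_eq_sinh_div_cosh]
  field_simp

theorem hasDerivAt_phi {θ : ℝ} (h0 : 0 ≤ θ) (h1 : θ < 1) (u : ℝ) :
    HasDerivAt (phi θ) (θ * gg θ u) u := by
  have hmem : ∀ v, θ * Real.tanh v ∈ Set.Ioo (-1 : ℝ) 1 := artanh_arg_mem h0 h1
  have hf : phi θ =
      fun v => 1 / 2 * Real.log ((1 + θ * Real.tanh v) / (1 - θ * Real.tanh v)) := by
    funext v
    unfold phi
    exact Real.artanh_eq_half_log ⟨(hmem v).1.le, (hmem v).2.le⟩
  have h2 := (hmem u).1
  have h3 := (hmem u).2
  have ht := (hasDerivAt_tanh u).const_mul θ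
  have hnum := ht.const_add 1
  have hden := ht.const_sub 1
  have hq := hnum.fun_div hden (by linarith : (1 - θ * Real.tanh u) ≠ 0)
  have hl := hq.log (by
    have : 0 < (1 + θ * Real.tanh u) / (1 - θ * Real.tanh u) :=
      div_pos (by linarith) (by linarith)
    exact this.ne')
  have hfin := hl.const_mul (1 / 2 : ℝ)
  rw [hf]
  refine hfin.congr_deriv ?_
  unfold gg
  have e1 : (1 + θ * Real.tanh u) ≠ 0 := by linarith
  have e2 : (1 - θ * Real.tanh u) ≠ 0 := by linarith
  have e3 : (1 - θ ^ 2 * Real.tanh u ^ 2) ≠ 0 := (den_pos h0 h1 u).ne'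
  have e4 : 1 - θ ^ 2 * Real.tanh u ^ 2 = (1 + θ * Real.tanh u) * (1 - θ * Real.tanh u) := by ring
  rw [e4]
  field_simp
  ring

/-- Addition formula for `tanh`. -/
theorem tanh_add' (a b : ℝ) :
    Real.tanh (a + b) = (Real.tanh a + Real.tanh b) / (1 + Real.tanh a * Real.tanh b) := by
  have ha := (Real.cosh_pos a).ne'
  have hb := (Real.cosh_pos b).ne'
  have hs : Real.cosh a * Real.cosh b + Real.sinh a * Real.sinh b ≠ 0 := by
    rw [← Real.cosh_add]
    exact (Real.cosh_pos _).ne'
  rw [Real.tanh_eq_sinh_div_cosh, Real.tanh_eq_sinh_div_cosh, Real.tanh_eq_sinh_div_cosh,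
    Real.sinh_add, Real.cosh_add]
  field_simp

theorem tanh_nonneg_of_nonneg {β : ℝ} (hβ : 0 ≤ β) : 0 ≤ Real.tanh β := by
  rw [Real.tanh_eq_sinh_div_cosh]
  exact div_nonneg (Real.sinh_nonneg_iff.2 hβ) (Real.cosh_pos β).le

/-- `exp (β t s)` for signs. -/
theorem exp_sign (β t : ℝ) (ht : t = 1 ∨ t = -1) :
    Real.exp (β * t) = Real.cosh β + t * Real.sinh β := by
  rcases ht with rfl | rfl
  · simp [Real.cosh_add_sinh]
  · have := Real.cosh_sub_sinh β
    simp only [mul_neg, mul_one, neg_mul, one_mul]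
    linarith

theorem sign_mul {s t : ℝ} (hs : s = 1 ∨ s = -1) (ht : t = 1 ∨ t = -1) :
    t * s = 1 ∨ t * s = -1 := by
  rcases hs with rfl | rfl <;> rcases ht with rfl | rfl <;> norm_num

/-- The factor of a pruned branch. -/
theorem cavity_factor {β : ℝ} (hβ : 0 ≤ β) (h t : ℝ) (ht : t = 1 ∨ t = -1) :
    Real.cosh β + t * Real.tanh h * Real.sinh β =
      Real.cosh β / Real.cosh (phi (Real.tanh β) h) *
        Real.exp (phi (Real.tanh β) h * t) := by
  set φ := phi (Real.tanh β) h with hφ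
  have h0 := tanh_nonneg_of_nonneg hβ
  have h1 := Real.tanh_lt_one β
  have h2 : Real.tanh φ = Real.tanh β * Real.tanh h := tanh_phi h0 h1 h
  have h3 : Real.sinh φ = Real.tanh β * Real.tanh h * Real.cosh φ := by
    rw [← h2, Real.tanh_eq_sinh_div_cosh]
    field_simp
  have h4 : Real.tanh β * Real.cosh β = Real.sinh β := by
    rw [Real.tanh_eq_sinh_div_cosh]
    field_simp
  rw [exp_sign φ t ht, h3]
  have hc := (Real.cosh_pos φ).ne'
  field_simp
  rw [← h4]
  ring

/-! ### The unit perturbation -/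

/-- The unit vector at `z`. -/
def dl (z : V) : V → ℝ := fun v => if v = z then 1 else 0

theorem tilt_dl {S : Finset V} {z : V} (hz : z ∈ S) (A : Finset V) : tilt S A (dl z) = sp A z := by
  unfold tilt dl
  rw [Finset.sum_eq_single_of_mem z hz]
  · simp
  · intro b _ hb
    simp [hb]

theorem add_dl_self (y : V → ℝ) (e : ℝ) (z : V) : (y + e • dl z) z = y z + e := by
  simp [dl]

theorem add_dl_of_ne (y : V → ℝ) (e : ℝ) {z u : V} (h : u ≠ z) : (y + e • dl z) u = y u := by
  simp [dl, h]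

/-! ### Pruning -/

section Prune

variable {G : SimpleGraph V} {β : ℝ} {S₁ S₂ : Finset V} {u x : V}

/-- Factorization of the weights over a cut consisting of the edge `u x`. -/
theorem wt_union (hd : Disjoint S₁ S₂) (hu : u ∈ S₁) (hx : x ∈ S₂) (hux : G.Adj u x)
    (hcut : ∀ a ∈ S₁, ∀ b ∈ S₂, G.Adj a b → a = u ∧ b = x) (y : V → ℝ)
    {A₁ A₂ : Finset V} (hA₁ : A₁ ⊆ S₁) (hA₂ : A₂ ⊆ S₂) :
    wt G β (S₁ ∪ S₂) y (A₁ ∪ A₂) =
      wt G β S₁ y A₁ * wt G β S₂ y A₂ * Real.exp (β * (sp A₁ u * sp A₂ x)) := by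
  have s1 : ∀ v ∈ S₁, sp (A₁ ∪ A₂) v = sp A₁ v := by
    intro v hv
    have : v ∉ A₂ := fun h => Finset.disjoint_left.mp hd hv (hA₂ h)
    simp [sp, this]
  have s2 : ∀ v ∈ S₂, sp (A₁ ∪ A₂) v = sp A₂ v := by
    intro v hv
    have : v ∉ A₁ := fun h => Finset.disjoint_right.mp hd hv (hA₁ h)
    simp [sp, this]
  have hcross : ∑ a ∈ S₁, ∑ b ∈ S₂, (if G.Adj a b then sp (A₁ ∪ A₂) a * sp (A₁ ∪ A₂) b else 0) =
      sp A₁ u * sp A₂ x := by
    rw [Finset.sum_eq_single_of_mem u hu]
    · rw [Finset.sum_eq_single_of_mem x hx]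
      · rw [if_pos hux, s1 u hu, s2 x hx]
      · intro b hb hbx
        rw [if_neg]
        intro hab
        exact hbx (hcut u hu b hb hab).2
    · intro a ha hau
      refine Finset.sum_eq_zero fun b hb => ?_
      rw [if_neg]
      intro hab
      exact hau (hcut a ha b hb hab).1
  have hp1 : pairSum G S₁ (A₁ ∪ A₂) = pairSum G S₁ A₁ := by
    refine pairSum_congr G fun v hv => ?_
    have : v ∉ A₂ := fun h => Finset.disjoint_left.mp hd hv (hA₂ h)
    simp [this]
  have hp2 : pairSum G S₂ (A₁ ∪ A₂) = pairSum G S₂ A₂ := by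
    refine pairSum_congr G fun v hv => ?_
    have : v ∉ A₁ := fun h => Finset.disjoint_right.mp hd hv (hA₁ h)
    simp [this]
  have hpair := pairSum_union G hd (A₁ ∪ A₂)
  rw [hp1, hp2, hcross] at hpair
  have htilt : tilt (S₁ ∪ S₂) (A₁ ∪ A₂) y = tilt S₁ A₁ y + tilt S₂ A₂ y := by
    unfold tilt
    rw [Finset.sum_union hd]
    congr 1
    · exact Finset.sum_congr rfl fun v hv => by rw [s1 v hv]
    · exact Finset.sum_congr rfl fun v hv => by rw [s2 v hv]
  unfold wt baseW
  rw [htilt, hpair]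
  simp only [← Real.exp_add]
  congr 1
  ring

/-- The sum over the branch of a factor depending on the spin at the root of the branch. -/
theorem sum_wt_exp (G : SimpleGraph V) (β : ℝ) (S : Finset V) (y : V → ℝ) (x : V) (t : ℝ)
    (ht : t = 1 ∨ t = -1) :
    ∑ A ∈ S.powerset, wt G β S y A * Real.exp (β * (t * sp A x)) =
      Zf G β S y * (Real.cosh β + t * mean G β S y x * Real.sinh β) := by
  have hZ := (Zf_pos G β S y).ne'
  have hm : mean G β S y x * Zf G β S y = ∑ A ∈ S.powerset, wt G β S y A * sp A x := by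
    unfold mean
    rw [Ee_eq]
    field_simp
  have e : ∀ A ∈ S.powerset, wt G β S y A * Real.exp (β * (t * sp A x)) =
      Real.cosh β * wt G β S y A + t * Real.sinh β * (wt G β S y A * sp A x) := by
    intro A _
    rw [exp_sign β _ (sign_mul (sp_eq_or A x) ht)]
    ring
  rw [Finset.sum_congr rfl e, Finset.sum_add_distrib, ← Finset.mul_sum, ← Finset.mul_sum, ← hm]
  unfold Zf
  ring

theorem wt_add_dl {S : Finset V} (hu : u ∈ S) (y : V → ℝ) (e : ℝ) (A : Finset V) :
    wt G β S (y + e • dl u) A = wt G β S y A * Real.exp (e * sp A u) := by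
  unfold wt
  rw [tilt_add_smul, tilt_dl hu, Real.exp_add]
  ring

/-- Summing out a branch. -/
theorem sum_prune (hβ : 0 ≤ β) (hd : Disjoint S₁ S₂) (hu : u ∈ S₁) (hx : x ∈ S₂) (hux : G.Adj u x)
    (hcut : ∀ a ∈ S₁, ∀ b ∈ S₂, G.Adj a b → a = u ∧ b = x) (y : V → ℝ) {h : ℝ}
    (hm : mean G β S₂ y x = Real.tanh h) (f : Finset V → ℝ)
    (hf : ∀ A₁ ⊆ S₁, ∀ A₂ ⊆ S₂, f (A₁ ∪ A₂) = f A₁) :
    ∑ A ∈ (S₁ ∪ S₂).powerset, wt G β (S₁ ∪ S₂) y A * f A =
      (Zf G β S₂ y * (Real.cosh β / Real.cosh (phi (Real.tanh β) h))) *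
        ∑ A ∈ S₁.powerset, wt G β S₁ (y + phi (Real.tanh β) h • dl u) A * f A := by
  rw [sum_powerset_union hd, Finset.mul_sum]
  refine Finset.sum_congr rfl fun A₁ hA₁ => ?_
  have hA₁' := Finset.mem_powerset.mp hA₁
  have e : ∀ A₂ ∈ S₂.powerset, wt G β (S₁ ∪ S₂) y (A₁ ∪ A₂) * f (A₁ ∪ A₂) =
      wt G β S₁ y A₁ * f A₁ * (wt G β S₂ y A₂ * Real.exp (β * (sp A₁ u * sp A₂ x))) := by
    intro A₂ hA₂
    have hA₂' := Finset.mem_powerset.mp hA₂
    rw [wt_union hd hu hx hux hcut y hA₁' hA₂', hf A₁ hA₁' A₂ hA₂']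
    ring
  rw [Finset.sum_congr rfl e, ← Finset.mul_sum, sum_wt_exp G β S₂ y x _ (sp_eq_or A₁ u), hm,
    cavity_factor hβ h _ (sp_eq_or A₁ u), wt_add_dl hu]
  ring

/-- Pruning: expectations of functions of the configuration on `S₁`. -/
theorem Ee_prune (hβ : 0 ≤ β) (hd : Disjoint S₁ S₂) (hu : u ∈ S₁) (hx : x ∈ S₂) (hux : G.Adj u x)
    (hcut : ∀ a ∈ S₁, ∀ b ∈ S₂, G.Adj a b → a = u ∧ b = x) (y : V → ℝ) {h : ℝ}
    (hm : mean G β S₂ y x = Real.tanh h) (f : Finset V → ℝ)
    (hf : ∀ A₁ ⊆ S₁, ∀ A₂ ⊆ S₂, f (A₁ ∪ A₂) = f A₁) :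
    Ee G β (S₁ ∪ S₂) y f = Ee G β S₁ (y + phi (Real.tanh β) h • dl u) f := by
  have hK : Zf G β S₂ y * (Real.cosh β / Real.cosh (phi (Real.tanh β) h)) ≠ 0 := by
    have h1 := Zf_pos G β S₂ y
    have h2 := Real.cosh_pos β
    have h3 := Real.cosh_pos (phi (Real.tanh β) h)
    positivity
  have hZ : Zf G β (S₁ ∪ S₂) y = (Zf G β S₂ y * (Real.cosh β / Real.cosh (phi (Real.tanh β) h))) *
      Zf G β S₁ (y + phi (Real.tanh β) h • dl u) := by
    have := sum_prune hβ hd hu hx hux hcut y hm (fun _ => 1) (fun _ _ _ _ => rfl)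
    simpa [Zf] using this
  rw [Ee_eq, Ee_eq, sum_prune hβ hd hu hx hux hcut y hm f hf, hZ, mul_div_mul_left _ _ hK]

/-- The magnetisation of one spin. -/
theorem mean_singleton (G : SimpleGraph V) (β : ℝ) (y : V → ℝ) (x : V) :
    mean G β {x} y x = Real.tanh (y x) := by
  have hp : ∀ A : Finset V, pairSum G {x} A = 0 := by
    intro A
    simp [pairSum]
  have hw : ∀ A : Finset V, wt G β {x} y A = Real.exp (y x * sp A x) := by
    intro A
    simp [wt, baseW, hp, tilt]
  have hs : ∀ f : Finset V → ℝ, ∑ A ∈ ({x} : Finset V).powerset, f A = f ∅ + f {x} := by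
    intro f
    have : ({x} : Finset V) = insert x ∅ := by simp
    rw [this, Finset.sum_powerset_insert (Finset.notMem_empty x)]
    simp
  have h1 : sp (∅ : Finset V) x = -1 := by simp [sp]
  have h2 : sp ({x} : Finset V) x = 1 := by simp [sp]
  unfold mean
  rw [Ee_eq]
  unfold Zf
  rw [hs, hs, hw, hw, h1, h2, Real.tanh_eq_sinh_div_cosh, Real.sinh_eq, Real.cosh_eq]
  have : Real.exp (y x * -1) = Real.exp (-y x) := by
    congr 1
    ring
  rw [this, mul_one]
  have h3 := Real.exp_pos (y x)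
  have h4 := Real.exp_pos (-y x)
  have h5 : Real.exp (-y x) + Real.exp (y x) ≠ 0 := by positivity
  have h6 : Real.exp (y x) + Real.exp (-y x) ≠ 0 := by positivity
  field_simp
  ring

end Prune

/-! ### Branches and cavity fields -/

section Tree

variable (G : SimpleGraph V) [G.LocallyFinite]

/-- Cavity field at `x`, with parent `p`, of the branch of depth `n`. -/
def hh (th : ℝ) : ℕ → V → V → (V → ℝ) → ℝ
  | 0, _, x, y => y x
  | n + 1, p, x, y => y x + ∑ c ∈ (G.neighborFinset x).erase p, phi th (hh th n x c y)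

/-- The branch of depth `n` at `x`, away from `p`. -/
def BrB : ℕ → V → V → Finset V
  | 0, _, x => {x}
  | n + 1, p, x => insert x (((G.neighborFinset x).erase p).biUnion (fun c => BrB n x c))

/-- The vertex `x` together with the branches at its neighbours in `C`. -/
def Rt (n : ℕ) (x : V) (C : Finset V) : Finset V :=
  insert x (C.biUnion (fun c => BrB G n x c))

/-- The field at `x` coming from the branches at its neighbours in `C`. -/
def FC (th : ℝ) (n : ℕ) (x : V) (C : Finset V) (y : V → ℝ) : ℝ :=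
  y x + ∑ c ∈ C, phi th (hh G th n x c y)

variable {G}

theorem hh_zero (th : ℝ) (p x : V) (y : V → ℝ) : hh G th 0 p x y = y x := rfl

theorem hh_succ (th : ℝ) (n : ℕ) (p x : V) (y : V → ℝ) :
    hh G th (n + 1) p x y = FC G th n x ((G.neighborFinset x).erase p) y := rfl

theorem BrB_zero (p x : V) : BrB G 0 p x = {x} := rfl

theorem BrB_succ (n : ℕ) (p x : V) :
    BrB G (n + 1) p x = Rt G n x ((G.neighborFinset x).erase p) := rfl

/-- The cavity field depends only on the field on the branch. -/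
theorem hh_congr (th : ℝ) : ∀ (n : ℕ) (p x : V) {y y' : V → ℝ},
    (∀ u ∈ BrB G n p x, y u = y' u) → hh G th n p x y = hh G th n p x y' := by
  intro n
  induction n with
  | zero =>
    intro p x y y' h
    exact h x (by simp [BrB_zero])
  | succ n ih =>
    intro p x y y' h
    rw [hh_succ, hh_succ]
    unfold FC
    congr 1
    · exact h x (by simp [BrB_succ, Rt])
    · refine Finset.sum_congr rfl fun c hc => ?_
      rw [ih x c fun u hu => h u ?_]
      rw [BrB_succ, Rt]
      exact Finset.mem_insert_of_mem (Finset.mem_biUnion.2 ⟨c, hc, hu⟩)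

variable (hT : G.IsTree)
include hT

/-- Description of the branches by distances. -/
theorem mem_BrB : ∀ (n : ℕ) (p x : V), G.Adj p x → ∀ z,
    (z ∈ BrB G n p x ↔ G.dist x z ≤ n ∧ G.dist p z = G.dist x z + 1) := by
  intro n
  induction n with
  | zero =>
    intro p x hpx z
    rw [BrB_zero, Finset.mem_singleton]
    constructor
    · rintro rfl
      simp [SimpleGraph.dist_eq_one_iff_adj.2 hpx]
    · rintro ⟨h1, -⟩
      exact ((hT.connected.dist_eq_zero_iff).1 (by omega)).symm
  | succ n ih =>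
    intro p x hpx z
    rw [BrB_succ, Rt, Finset.mem_insert, Finset.mem_biUnion]
    constructor
    · rintro (rfl | ⟨c, hc, hz⟩)
      · simp [SimpleGraph.dist_eq_one_iff_adj.2 hpx]
      · have hc' := Finset.mem_erase.1 hc
        have hxc : G.Adj x c := by simpa using hc'.2
        obtain ⟨h1, h2⟩ := (ih x c hxc z).1 hz
        refine ⟨by omega, ?_⟩
        rcases dist_adj hT (o := z) hpx with h3 | h3
        · exfalso
          rw [SimpleGraph.dist_comm (u := z) (v := x), SimpleGraph.dist_comm (u := z) (v := p)] at h3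
          have : p = c := parent_unique hT (o := z) hpx.symm hxc
            (by rw [SimpleGraph.dist_comm (u := z) (v := p),
              SimpleGraph.dist_comm (u := z) (v := x)]; omega)
            (by rw [SimpleGraph.dist_comm (u := z) (v := c),
              SimpleGraph.dist_comm (u := z) (v := x)]; omega)
          exact hc'.1 this.symm
        · rw [SimpleGraph.dist_comm (u := z) (v := x), SimpleGraph.dist_comm (u := z) (v := p)] at h3
          exact h3
    · rintro ⟨h1, h2⟩
      by_cases hxz : z = x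
      · exact Or.inl hxz
      · right
        obtain ⟨c, hxc, hd⟩ := exists_parent hT (o := z) (x := x) (Ne.symm hxz)
        rw [SimpleGraph.dist_comm (u := z) (v := c), SimpleGraph.dist_comm (u := z) (v := x)] at hd
        refine ⟨c, ?_, (ih x c hxc z).2 ⟨by omega, by omega⟩⟩
        refine Finset.mem_erase.2 ⟨?_, by simpa using hxc⟩
        rintro rfl
        omega

/-- The vertex `x` is not in a branch hanging from `x`. -/
theorem notMem_BrB {n : ℕ} {x c : V} (hxc : G.Adj x c) : x ∉ BrB G n x c := by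
  intro h
  have := ((mem_BrB hT n x c hxc x).1 h).2
  simp at this

theorem BrB_side {n : ℕ} {x c b : V} (hxc : G.Adj x c) (hb : b ∈ BrB G n x c) :
    G.dist b c < G.dist b x := by
  have := ((mem_BrB hT n x c hxc b).1 hb).2
  rw [SimpleGraph.dist_comm (u := b) (v := c), SimpleGraph.dist_comm (u := b) (v := x)]
  omega

/-- A vertex of another branch is on the side of `x`. -/
theorem Rt_side {n : ℕ} {x c a : V} {C : Finset V} (hC : ∀ c ∈ C, G.Adj x c) (hxc : G.Adj x c)
    (hcC : c ∉ C) (ha : a ∈ Rt G n x C) : G.dist a x < G.dist a c := by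
  rw [Rt, Finset.mem_insert, Finset.mem_biUnion] at ha
  rcases ha with rfl | ⟨c', hc', ha⟩
  · simp [SimpleGraph.dist_eq_one_iff_adj.2 hxc]
  · have h1 := ((mem_BrB hT n x c' (hC c' hc') a).1 ha).2
    rcases dist_adj hT (o := a) hxc with h3 | h3
    · omega
    · exfalso
      have : c = c' := parent_unique hT (o := a) hxc (hC c' hc') (by omega)
        (by rw [SimpleGraph.dist_comm (u := a) (v := c'),
          SimpleGraph.dist_comm (u := a) (v := x)]; omega)
      exact hcC (this ▸ hc')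

theorem Rt_disjoint {n : ℕ} {x c : V} {C : Finset V} (hC : ∀ c ∈ C, G.Adj x c) (hxc : G.Adj x c)
    (hcC : c ∉ C) : Disjoint (Rt G n x C) (BrB G n x c) := by
  rw [Finset.disjoint_left]
  intro a ha hb
  have h1 := Rt_side hT hC hxc hcC ha
  have h2 := BrB_side hT hxc hb
  omega

omit hT in
theorem Rt_insert (n : ℕ) (x c : V) (C : Finset V) :
    Rt G n x (insert c C) = Rt G n x C ∪ BrB G n x c := by
  ext a
  simp only [Rt, Finset.mem_insert, Finset.mem_biUnion, Finset.mem_union]
  constructor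
  · rintro (rfl | ⟨c', hc', ha⟩)
    · exact Or.inl (Or.inl rfl)
    · rcases hc' with rfl | hc'
      · exact Or.inr ha
      · exact Or.inl (Or.inr ⟨c', hc', ha⟩)
  · rintro ((rfl | ⟨c', hc', ha⟩) | ha)
    · exact Or.inl rfl
    · exact Or.inr ⟨c', Or.inr hc', ha⟩
    · exact Or.inr ⟨c, Or.inl rfl, ha⟩

omit hT in
theorem self_mem_Rt (n : ℕ) (x : V) (C : Finset V) : x ∈ Rt G n x C := by
  simp [Rt]

omit hT in
theorem self_mem_BrB (n : ℕ) (p x : V) : x ∈ BrB G n p x := by
  cases n with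
  | zero => simp [BrB_zero]
  | succ n => rw [BrB_succ]; exact self_mem_Rt _ _ _

/-- Cavity field with a perturbation at the parent. -/
theorem hh_add_dl_parent {th : ℝ} {n : ℕ} {x c : V} (hxc : G.Adj x c) (y : V → ℝ) (e : ℝ) :
    hh G th n x c (y + e • dl x) = hh G th n x c y := by
  refine hh_congr th n x c fun u hu => ?_
  refine add_dl_of_ne y e ?_
  rintro rfl
  exact notMem_BrB hT hxc hu

/-- One vertex with some of its branches: the magnetisation at the vertex. -/
theorem mean_Rt {β : ℝ} (hβ : 0 ≤ β) {n : ℕ} {x : V}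
    (hIH : ∀ c, G.Adj x c → ∀ y, mean G β (BrB G n x c) y c =
      Real.tanh (hh G (Real.tanh β) n x c y)) (C : Finset V) :
    (∀ c ∈ C, G.Adj x c) → ∀ y, mean G β (Rt G n x C) y x =
      Real.tanh (FC G (Real.tanh β) n x C y) := by
  induction C using Finset.induction_on with
  | empty =>
    intro _ y
    have : Rt G n x ∅ = {x} := by simp [Rt]
    rw [this, mean_singleton]
    simp [FC]
  | insert c C hcC ih =>
    intro hC y
    have hC' : ∀ c ∈ C, G.Adj x c := fun c' hc' => hC c' (Finset.mem_insert_of_mem hc')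
    have hxc : G.Adj x c := hC c (Finset.mem_insert_self _ _)
    rw [Rt_insert]
    have hcut : ∀ a ∈ Rt G n x C, ∀ b ∈ BrB G n x c, G.Adj a b → a = x ∧ b = c := by
      intro a ha b hb hab
      exact edge_cut hT hxc hab (Rt_side hT hC' hxc hcC ha) (BrB_side hT hxc hb)
    have h1 : mean G β (Rt G n x C ∪ BrB G n x c) y x =
        mean G β (Rt G n x C) (y + phi (Real.tanh β) (hh G (Real.tanh β) n x c y) • dl x) x := by
      refine Ee_prune hβ (Rt_disjoint hT hC' hxc hcC) (self_mem_Rt n x C) (self_mem_BrB n x c)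
        hxc hcut y (hIH c hxc y) _ ?_
      intro A₁ _ A₂ hA₂
      have : x ∉ A₂ := fun h => notMem_BrB hT hxc (hA₂ h)
      simp [sp, this]
    rw [h1, ih hC']
    congr 1
    unfold FC
    rw [add_dl_self, Finset.sum_insert hcC]
    have : ∀ c' ∈ C, phi (Real.tanh β) (hh G (Real.tanh β) n x c'
        (y + phi (Real.tanh β) (hh G (Real.tanh β) n x c y) • dl x)) =
        phi (Real.tanh β) (hh G (Real.tanh β) n x c' y) := by
      intro c' hc'
      rw [hh_add_dl_parent hT (hC' c' hc')]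
    rw [Finset.sum_congr rfl this]
    ring

/-- **B1**: the magnetisation at the root of a branch is the hyperbolic tangent of the cavity
field. -/
theorem mean_BrB {β : ℝ} (hβ : 0 ≤ β) (n : ℕ) (p x : V) (y : V → ℝ) :
    mean G β (BrB G n p x) y x = Real.tanh (hh G (Real.tanh β) n p x y) := by
  induction n generalizing p x y with
  | zero =>
    rw [BrB_zero, hh_zero, mean_singleton]
  | succ n ih =>
    rw [BrB_succ, hh_succ]
    exact mean_Rt hT hβ (fun c _ y => ih x c y) _
      (fun c hc => by simpa using (Finset.mem_erase.1 hc).2) y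

/-- The ball is the root with all its branches. -/
theorem ball_eq_Rt (r : V) (M : ℕ) :
    ball G r (M + 1) = Rt G M r (G.neighborFinset r) := by
  ext z
  rw [mem_ball hT, Rt, Finset.mem_insert, Finset.mem_biUnion]
  constructor
  · intro h
    by_cases hz : z = r
    · exact Or.inl hz
    · right
      obtain ⟨c, hrc, hd⟩ := exists_parent hT (o := z) (x := r) (Ne.symm hz)
      rw [SimpleGraph.dist_comm (u := z) (v := c), SimpleGraph.dist_comm (u := z) (v := r)] at hd
      exact ⟨c, by simpa using hrc, (mem_BrB hT M r c hrc z).2 ⟨by omega, by omega⟩⟩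
  · rintro (rfl | ⟨c, hc, hz⟩)
    · simp
    · have hrc : G.Adj r c := by simpa using hc
      have := (mem_BrB hT M r c hrc z).1 hz
      omega

/-- **B2**: the magnetisation at the centre of a ball. -/
theorem mean_ball {β : ℝ} (hβ : 0 ≤ β) (r : V) (M : ℕ) (y : V → ℝ) :
    mean G β (ball G r (M + 1)) y r =
      Real.tanh (y r + ∑ c ∈ G.neighborFinset r, phi (Real.tanh β) (hh G (Real.tanh β) M r c y)) := by
  rw [ball_eq_Rt hT]
  exact mean_Rt hT hβ (fun c _ y => mean_BrB hT hβ M r c y) _ (fun c hc => by simpa using hc) y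

/-! ### Derivatives along a path -/

omit hT in
theorem hh_add_dl_of_notMem {th : ℝ} {n : ℕ} {p x z : V} (hz : z ∉ BrB G n p x) (y : V → ℝ)
    (e : ℝ) : hh G th n p x (y + e • dl z) = hh G th n p x y :=
  hh_congr th n p x fun _ hu => add_dl_of_ne y e fun h => hz (h ▸ hu)

/-- Two branches at `x` are disjoint. -/
theorem notMem_BrB_of_ne {n : ℕ} {x c c' z : V} (hc : G.Adj x c) (hc' : G.Adj x c') (hne : c' ≠ c)
    (hz : z ∈ BrB G n x c) : z ∉ BrB G n x c' := by
  intro hz'
  have h1 := ((mem_BrB hT n x c hc z).1 hz).2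
  have h2 := ((mem_BrB hT n x c' hc' z).1 hz').2
  refine hne (parent_unique hT (o := z) hc' hc ?_ ?_)
  · rw [SimpleGraph.dist_comm (u := z) (v := c'), SimpleGraph.dist_comm (u := z) (v := x)]
    omega
  · rw [SimpleGraph.dist_comm (u := z) (v := c), SimpleGraph.dist_comm (u := z) (v := x)]
    omega

theorem hasDeriv_FC_self (th : ℝ) (n : ℕ) (x : V) {C : Finset V} (hC : ∀ c ∈ C, G.Adj x c)
    (y : V → ℝ) : HasDerivAt (fun τ : ℝ => FC G th n x C (y + τ • dl x)) 1 0 := by
  have e : (fun τ : ℝ => FC G th n x C (y + τ • dl x)) =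
      fun τ : ℝ => τ + (y x + ∑ c ∈ C, phi th (hh G th n x c y)) := by
    funext τ
    unfold FC
    rw [add_dl_self, Finset.sum_congr rfl fun c hc => by rw [hh_add_dl_parent hT (hC c hc)]]
    ring
  rw [e]
  exact (hasDerivAt_id' (0 : ℝ)).add_const _

theorem hasDeriv_hh_self (th : ℝ) (n : ℕ) (p x : V) (y : V → ℝ) :
    HasDerivAt (fun τ : ℝ => hh G th n p x (y + τ • dl x)) 1 0 := by
  cases n with
  | zero =>
    have e : (fun τ : ℝ => hh G th 0 p x (y + τ • dl x)) = fun τ : ℝ => τ + y x := by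
      funext τ
      rw [hh_zero, add_dl_self]
      ring
    rw [e]
    exact (hasDerivAt_id' (0 : ℝ)).add_const _
  | succ n =>
    simp only [hh_succ]
    exact hasDeriv_FC_self hT th n x
      (fun c hc => by simpa using (Finset.mem_erase.1 hc).2) y

theorem hasDeriv_FC_branch {th : ℝ} (h0 : 0 ≤ th) (h1 : th < 1) {n : ℕ} {x c₀ z : V} {C : Finset V}
    (hC : ∀ c ∈ C, G.Adj x c) (hc₀ : c₀ ∈ C) (hz : z ∈ BrB G n x c₀) (y : V → ℝ) {D : ℝ}
    (hD : HasDerivAt (fun τ : ℝ => hh G th n x c₀ (y + τ • dl z)) D 0) :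
    HasDerivAt (fun τ : ℝ => FC G th n x C (y + τ • dl z)) (th * gg th (hh G th n x c₀ y) * D) 0 := by
  have hzx : x ≠ z := by
    rintro rfl
    exact notMem_BrB hT (hC c₀ hc₀) hz
  have e : (fun τ : ℝ => FC G th n x C (y + τ • dl z)) = fun τ : ℝ =>
      phi th (hh G th n x c₀ (y + τ • dl z)) +
        (y x + ∑ c ∈ C.erase c₀, phi th (hh G th n x c y)) := by
    funext τ
    unfold FC
    rw [add_dl_of_ne _ _ hzx, ← Finset.add_sum_erase C _ hc₀]
    have : ∀ c ∈ C.erase c₀, phi th (hh G th n x c (y + τ • dl z)) = phi th (hh G th n x c y) := by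
      intro c hc
      have hc' := Finset.mem_erase.1 hc
      rw [hh_add_dl_of_notMem (notMem_BrB_of_ne hT (hC c₀ hc₀) (hC c hc'.2) hc'.1 hz)]
    rw [Finset.sum_congr rfl this]
    ring
  rw [e]
  have h2 : HasDerivAt (phi th) (th * gg th (hh G th n x c₀ y))
      ((fun τ : ℝ => hh G th n x c₀ (y + τ • dl z)) 0) := by
    simpa using hasDerivAt_phi h0 h1 (hh G th n x c₀ y)
  exact (h2.comp (0 : ℝ) hD).add_const _

omit [G.LocallyFinite] hT in
theorem isNB_shift {v : ℕ → V} {k : ℕ} (hv : IsNB G v (k + 1)) :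
    IsNB G (fun i => v (i + 1)) k :=
  ⟨fun i hi => hv.1 (i + 1) (by omega), fun i hi => hv.2 (i + 1) (by omega)⟩

/-- The end of a path is in the branch. -/
theorem path_mem_BrB {v : ℕ → V} {k n : ℕ} (hv : IsNB G v (k + 1)) (hk : k ≤ n) :
    v (k + 1) ∈ BrB G n (v 0) (v 1) := by
  have h1 := IsNB.dist_eq hT hv (k + 1) le_rfl
  have h2 : G.dist (v 1) (v (k + 1)) = k := IsNB.dist_eq hT (isNB_shift hv) k le_rfl
  have hadj : G.Adj (v 0) (v 1) := hv.1 0 (by omega)
  exact (mem_BrB hT n _ _ hadj _).2 ⟨by omega, by omega⟩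

/-- The derivative of a cavity field in the field at the end of a path from its root. -/
theorem hasDeriv_hh_path {th : ℝ} (h0 : 0 ≤ th) (h1 : th < 1) (y : V → ℝ) :
    ∀ (k n : ℕ) (p : V) (v : ℕ → V), IsNB G v k → k ≤ n → (k ≠ 0 → v 1 ≠ p) →
      HasDerivAt (fun τ : ℝ => hh G th n p (v 0) (y + τ • dl (v k)))
        (∏ j ∈ Finset.range k, (th * gg th (hh G th (n - 1 - j) (v j) (v (j + 1)) y))) 0 := by
  intro k
  induction k with
  | zero =>
    intro n p v _ _ _
    simpa using hasDeriv_hh_self hT th n p (v 0) y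
  | succ k ih =>
    intro n p v hv hk hp
    obtain ⟨n, rfl⟩ : ∃ m, n = m + 1 := ⟨n - 1, by omega⟩
    have hx1 : G.Adj (v 0) (v 1) := hv.1 0 (by omega)
    have hD := ih n (v 0) (fun i => v (i + 1)) (isNB_shift hv) (by omega)
      (fun hk0 => hv.2 0 (by omega))
    simp only [zero_add] at hD
    have hF := hasDeriv_FC_branch hT h0 h1 (n := n) (x := v 0) (c₀ := v 1) (z := v (k + 1))
      (C := (G.neighborFinset (v 0)).erase p)
      (fun c hc => by simpa using (Finset.mem_erase.1 hc).2)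
      (Finset.mem_erase.2 ⟨hp (by omega), by simpa using hx1⟩)
      (path_mem_BrB hT hv (by omega)) y hD
    simp only [hh_succ]
    refine hF.congr_deriv ?_
    rw [Finset.prod_range_succ', mul_comm]
    simp only [zero_add, Nat.add_sub_cancel, Nat.sub_zero]
    congr 1
    refine Finset.prod_congr rfl fun j _ => ?_
    have e : n - (j + 1) = n - 1 - j := by omega
    rw [e]

/-- The derivative of the field at a vertex with some of its branches. -/
theorem hasDeriv_FC_path {th : ℝ} (h0 : 0 ≤ th) (h1 : th < 1) (y : V → ℝ) {n M : ℕ} {v : ℕ → V}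
    {C : Finset V} (hC : ∀ c ∈ C, G.Adj (v 0) c) (hv : IsNB G v n) (hn : n ≤ M + 1)
    (hvC : n ≠ 0 → v 1 ∈ C) :
    HasDerivAt (fun τ : ℝ => FC G th M (v 0) C (y + τ • dl (v n)))
      (∏ j ∈ Finset.range n, (th * gg th (hh G th (M - j) (v j) (v (j + 1)) y))) 0 := by
  cases n with
  | zero =>
    simpa using hasDeriv_FC_self hT th M (v 0) hC y
  | succ k =>
    have hD := hasDeriv_hh_path hT h0 h1 y k M (v 0) (fun i => v (i + 1)) (isNB_shift hv)
      (by omega) (fun hk0 => hv.2 0 (by omega))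
    simp only [zero_add] at hD
    have hF := hasDeriv_FC_branch hT h0 h1 (n := M) (x := v 0) (c₀ := v 1) (z := v (k + 1))
      hC (hvC (by omega)) (path_mem_BrB hT hv (by omega)) y hD
    refine hF.congr_deriv ?_
    rw [Finset.prod_range_succ', mul_comm]
    simp only [zero_add, Nat.sub_zero]
    congr 1
    refine Finset.prod_congr rfl fun j _ => ?_
    have e : M - (j + 1) = M - 1 - j := by omega
    rw [e]

omit [G.LocallyFinite] hT in
/-- The derivative of a mean in the field at `z` is a covariance. -/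
theorem hasDeriv_mean (β : ℝ) {S : Finset V} {z : V} (hz : z ∈ S) (y : V → ℝ)
    (r : V) : HasDerivAt (fun τ : ℝ => mean G β S (y + τ • dl z) r) (cov G β S y r z) 0 := by
  have h := hasDerivAt_Ee G β S y (dl z) (fun A => sp A r) 0
  simp only [zero_smul, add_zero] at h
  refine h.congr_deriv ?_
  simp only [tilt_dl hz]
  rfl

/-- The covariance along a path for a vertex with some of its branches. -/
theorem cov_Rt_path {β : ℝ} (hβ : 0 ≤ β) (y : V → ℝ) {n M : ℕ} {v : ℕ → V}
    {C : Finset V} (hC : ∀ c ∈ C, G.Adj (v 0) c) (hv : IsNB G v n) (hn : n ≤ M + 1)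
    (hvC : n ≠ 0 → v 1 ∈ C) :
    cov G β (Rt G M (v 0) C) y (v 0) (v n) =
      (1 - mean G β (Rt G M (v 0) C) y (v 0) ^ 2) *
        ∏ j ∈ Finset.range n, (Real.tanh β *
          gg (Real.tanh β) (hh G (Real.tanh β) (M - j) (v j) (v (j + 1)) y)) := by
  have h0 := tanh_nonneg_of_nonneg hβ
  have h1 := Real.tanh_lt_one β
  have hz : v n ∈ Rt G M (v 0) C := by
    cases n with
    | zero => exact self_mem_Rt _ _ _
    | succ k =>
      rw [Rt]
      exact Finset.mem_insert_of_mem (Finset.mem_biUnion.2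
        ⟨v 1, hvC (by omega), path_mem_BrB hT hv (by omega)⟩)
  have hm : ∀ y, mean G β (Rt G M (v 0) C) y (v 0) =
      Real.tanh (FC G (Real.tanh β) M (v 0) C y) :=
    mean_Rt hT hβ (fun c _ y => mean_BrB hT hβ M (v 0) c y) C hC
  have h2 := hasDeriv_mean (G := G) β hz y (v 0)
  have h3 := hasDeriv_FC_path hT h0 h1 y hC hv hn hvC
  have h4 : HasDerivAt Real.tanh (1 - Real.tanh (FC G (Real.tanh β) M (v 0) C y) ^ 2)
      ((fun τ : ℝ => FC G (Real.tanh β) M (v 0) C (y + τ • dl (v n))) 0) := by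
    simpa using hasDerivAt_tanh (FC G (Real.tanh β) M (v 0) C y)
  have h5 := h4.comp (0 : ℝ) h3
  have e : (fun τ : ℝ => mean G β (Rt G M (v 0) C) (y + τ • dl (v n)) (v 0)) =
      Real.tanh ∘ fun τ : ℝ => FC G (Real.tanh β) M (v 0) C (y + τ • dl (v n)) := by
    funext τ
    exact hm _
  rw [e] at h2
  rw [hm]
  exact h2.unique h5

/-- **B3**: the covariance along a path from the centre of a ball. -/
theorem cov_ball_path {β : ℝ} (hβ : 0 ≤ β) (y : V → ℝ) {r : V} {n M : ℕ} {v : ℕ → V}
    (hv : IsNB G v n) (h0 : v 0 = r) (hn : n ≤ M + 1) :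
    cov G β (ball G r (M + 1)) y r (v n) =
      (1 - mean G β (ball G r (M + 1)) y r ^ 2) *
        ∏ j ∈ Finset.range n, (Real.tanh β *
          gg (Real.tanh β) (hh G (Real.tanh β) (M - j) (v j) (v (j + 1)) y)) := by
  subst h0
  rw [ball_eq_Rt hT]
  refine cov_Rt_path hT hβ y (fun c hc => by simpa using hc) hv hn fun hn0 => ?_
  have := hv.1 0 (by omega)
  simpa using this

/-- The same inside a branch. -/
theorem cov_BrB_path {β : ℝ} (hβ : 0 ≤ β) (y : V → ℝ) {p : V} {n M : ℕ} {v : ℕ → V}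
    (hv : IsNB G v n) (hn : n ≤ M + 1) (hp : n ≠ 0 → v 1 ≠ p) :
    cov G β (BrB G (M + 1) p (v 0)) y (v 0) (v n) =
      (1 - mean G β (BrB G (M + 1) p (v 0)) y (v 0) ^ 2) *
        ∏ j ∈ Finset.range n, (Real.tanh β *
          gg (Real.tanh β) (hh G (Real.tanh β) (M - j) (v j) (v (j + 1)) y)) := by
  rw [BrB_succ]
  refine cov_Rt_path hT hβ y (fun c hc => by simpa using (Finset.mem_erase.1 hc).2) hv hn
    fun hn0 => Finset.mem_erase.2 ⟨hp hn0, ?_⟩
  have := hv.1 0 (by omega)
  simpa using this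

omit hT in
/-- The field at a vertex, seen from one of its edges. -/
theorem root_field_eq {th : ℝ} {x p : V} (hxp : G.Adj x p) (M : ℕ) (y : V → ℝ) :
    y x + ∑ c ∈ G.neighborFinset x, phi th (hh G th M x c y) =
      hh G th (M + 1) p x y + phi th (hh G th M x p y) := by
  rw [hh_succ]
  unfold FC
  rw [← Finset.add_sum_erase (G.neighborFinset x) _ (by simpa using hxp : p ∈ G.neighborFinset x)]
  ring

end Tree

/-! ### Cavity form on an edge -/

/-- The message combination. -/
def FF (th a b : ℝ) : ℝ := (a + th * b) / (1 + th * a * b)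

section Cavity

variable {th : ℝ} (h0 : 0 ≤ th) (h1 : th < 1)
include h0 h1

theorem tanh_add_phi (u w : ℝ) :
    Real.tanh (u + phi th w) = FF th (Real.tanh u) (Real.tanh w) := by
  rw [tanh_add', tanh_phi h0 h1]
  unfold FF
  congr 1
  ring

theorem cavity_den_pos {a b : ℝ} (ha : |a| < 1) (hb : |b| < 1) : 0 < 1 + th * a * b := by
  have h2 : |th * a * b| < 1 := by
    rw [abs_mul, abs_mul, abs_of_nonneg h0]
    have h3 : |a| * |b| < 1 := by nlinarith [abs_nonneg a, abs_nonneg b]
    nlinarith [abs_nonneg a, abs_nonneg b, mul_nonneg (abs_nonneg a) (abs_nonneg b)]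
  have := (abs_lt.1 h2).1
  linarith

/-- Symmetric form of the product of `1 - m²` and of the path factor. -/
theorem one_sub_FF_sq {a b : ℝ} (ha : |a| < 1) (hb : |b| < 1) :
    (1 - FF th a b ^ 2) * ((1 - b ^ 2) / (1 - th ^ 2 * b ^ 2)) =
      (1 - a ^ 2) * (1 - b ^ 2) / (1 + th * a * b) ^ 2 := by
  have h2 := (cavity_den_pos h0 h1 ha hb).ne'
  have hb2 : b ^ 2 < 1 := by
    have := (abs_lt.1 hb)
    nlinarith
  have h3 : 0 < 1 - th ^ 2 * b ^ 2 := by
    have h4 : th ^ 2 < 1 := by nlinarith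
    nlinarith [sq_nonneg b]
  have e : 1 - FF th a b ^ 2 = (1 - a ^ 2) * (1 - th ^ 2 * b ^ 2) / (1 + th * a * b) ^ 2 := by
    have h5 : (1 + th * a * b) ^ 2 ≠ 0 := pow_ne_zero 2 h2
    rw [FF, div_pow, eq_div_iff h5, sub_mul, div_mul_cancel₀ _ h5]
    ring
  rw [e]
  field_simp

/-- The magnetisation on an edge and the path factor in terms of the two messages. -/
theorem one_sub_tanh_add_phi_mul_gg (u w : ℝ) :
    (1 - Real.tanh (u + phi th w) ^ 2) * gg th w =
      (1 - Real.tanh u ^ 2) * (1 - Real.tanh w ^ 2) /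
        (1 + th * Real.tanh u * Real.tanh w) ^ 2 := by
  rw [tanh_add_phi h0 h1]
  exact one_sub_FF_sq h0 h1 (abs_tanh_lt_one u) (abs_tanh_lt_one w)

end Cavity

end Vale.Agent.Lib.P161S
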