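import Vale.Agent.Lib.P161S.Analytic
import Vale.Agent.Lib.P161E.CorrIid

/-! The gauge model of the Ising model with Gaussian observations on a tree: independent edge signs
and independent fields. The cavity fields and the shell masses are explicit functions of these
independent variables, so that independence over disjoint branches is immediate. -/

open MeasureTheory Finset Filter Topology ProbabilityTheory
open scoped Classical ENNReal NNReal

noncomputable section

namespace Vale.Agent.Lib.P161S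

open Vale.Agent.Lib.P161 Vale.Agent.Lib.P161E

section Index

variable {I : Type*} {P : I → Measure ℝ} [∀ i, IsProbabilityMeasure (P i)]

/-- The sigma algebra generated by a set of coordinates. -/
def mS (J : Set I) : MeasurableSpace (I → ℝ) :=
  ⨆ i ∈ J, MeasurableSpace.comap (fun ω : I → ℝ => ω i) inferInstance

theorem mS_le (J : Set I) : mS J ≤ MeasurableSpace.pi := by
  refine iSup₂_le fun i _ => ?_
  rw [← measurable_iff_comap_le]
  exact measurable_pi_apply i

theorem mS_mono {J J' : Set I} (h : J ⊆ J') : mS J ≤ mS J' := by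
  refine iSup₂_le fun i hi => ?_
  unfold mS
  exact le_iSup₂_of_le i (h hi) le_rfl

theorem comap_le_mS {J : Set I} {i : I} (h : i ∈ J) :
    MeasurableSpace.comap (fun ω : I → ℝ => ω i) inferInstance ≤ mS J := by
  unfold mS
  exact le_iSup₂_of_le i h le_rfl

theorem coord_meas {J : Set I} {i : I} (h : i ∈ J) : Measurable[mS J] (fun ω : I → ℝ => ω i) :=
  measurable_iff_comap_le.2 (comap_le_mS h)

theorem indep_mS {J J' : Set I} (h : Disjoint J J') :
    Indep (mS J) (mS J') (Measure.infinitePi P) := by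
  have h1 : iIndepFun (fun (i : I) (ω : I → ℝ) => ω i) (Measure.infinitePi P) :=
    iIndepFun_infinitePi (P := P) (X := fun _ x => x) (fun _ => measurable_id)
  have h2 := (iIndepFun_iff_iIndep _ _ _).1 h1
  exact indep_iSup_of_disjoint
    (fun i => by rw [← measurable_iff_comap_le]; exact measurable_pi_apply i) h2 h

theorem integral_mul_mS {J J' : Set I} (h : Disjoint J J') {f g : (I → ℝ) → ℝ}
    (hf : Measurable[mS J] f) (hg : Measurable[mS J'] g) :
    ∫ ω, f ω * g ω ∂(Measure.infinitePi P) =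
      (∫ ω, f ω ∂(Measure.infinitePi P)) * ∫ ω, g ω ∂(Measure.infinitePi P) := by
  have hind : IndepFun f g (Measure.infinitePi P) := by
    rw [IndepFun_iff_Indep]
    refine indep_of_indep_of_le_left (indep_of_indep_of_le_right (indep_mS h) ?_) ?_
    · rw [← measurable_iff_comap_le]
      exact hg
    · rw [← measurable_iff_comap_le]
      exact hf
  have hfm : Measurable f := hf.mono (mS_le _) le_rfl
  have hgm : Measurable g := hg.mono (mS_le _) le_rfl
  exact hind.integral_mul_eq_mul_integral hfm.aestronglyMeasurable hgm.aestronglyMeasurable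

/-- Averaging over an independent variable. -/
theorem integral_indep_avg {J J' : Set I} (h : Disjoint J J') {X A Y : (I → ℝ) → ℝ}
    (hX : Measurable[mS J] X) (hA : Measurable[mS J'] A) (hY : Measurable[mS J'] Y)
    (hY0 : ∀ ω, 0 ≤ Y ω) (hYi : Integrable Y (Measure.infinitePi P)) {Ψ : ℝ → ℝ}
    (hΨ : Measurable Ψ) (hΨ0 : ∀ x, 0 ≤ Ψ x) (hΨ1 : ∀ x, Ψ x ≤ 1) {c : ℝ}
    (hc : ∀ a : ℝ, ∫ ω, Ψ (a + X ω) ∂(Measure.infinitePi P) ≤ c) :
    ∫ ω, Ψ (A ω + X ω) * Y ω ∂(Measure.infinitePi P) ≤
      c * ∫ ω, Y ω ∂(Measure.infinitePi P) := by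
  set μ := Measure.infinitePi P with hμ
  have hXm : Measurable X := hX.mono (mS_le _) le_rfl
  have hAm : Measurable A := hA.mono (mS_le _) le_rfl
  have hYm : Measurable Y := hY.mono (mS_le _) le_rfl
  have hWm' : Measurable[mS J'] (fun ω => (A ω, Y ω)) := hA.prodMk hY
  have hWm : Measurable (fun ω => (A ω, Y ω)) := hAm.prodMk hYm
  have hind : IndepFun X (fun ω => (A ω, Y ω)) μ := by
    rw [IndepFun_iff_Indep]
    refine indep_of_indep_of_le_left (indep_of_indep_of_le_right (indep_mS h) ?_) ?_
    · rw [← measurable_iff_comap_le]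
      exact hWm'
    · rw [← measurable_iff_comap_le]
      exact hX
  have hmap := (indepFun_iff_map_prod_eq_prod_map_map hXm.aemeasurable hWm.aemeasurable).1 hind
  set F : ℝ × ℝ × ℝ → ℝ := fun q => Ψ (q.2.1 + q.1) * q.2.2 with hF
  have hFm : Measurable F := (hΨ.comp ((measurable_fst.comp measurable_snd).add measurable_fst)).mul
    (measurable_snd.comp measurable_snd)
  have hpair : Measurable (fun ω => (X ω, A ω, Y ω)) := hXm.prodMk hWm
  have hint : Integrable (fun ω => Ψ (A ω + X ω) * Y ω) μ := by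
    refine Integrable.mono' hYi ?_ (Eventually.of_forall fun ω => ?_)
    · exact ((hΨ.comp (hAm.add hXm)).mul hYm).aestronglyMeasurable
    · rw [Real.norm_eq_abs, abs_of_nonneg (mul_nonneg (hΨ0 _) (hY0 ω))]
      calc Ψ (A ω + X ω) * Y ω ≤ 1 * Y ω := mul_le_mul_of_nonneg_right (hΨ1 _) (hY0 ω)
        _ = Y ω := one_mul _
  have hFint : Integrable F (μ.map (fun ω => (X ω, A ω, Y ω))) :=
    (integrable_map_measure hFm.aestronglyMeasurable hpair.aemeasurable).2 hint
  have e1 : ∫ ω, Ψ (A ω + X ω) * Y ω ∂μ = ∫ q, F q ∂(μ.map (fun ω => (X ω, A ω, Y ω))) := by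
    rw [integral_map hpair.aemeasurable hFm.aestronglyMeasurable]
  have hmap' : μ.map (fun ω => (X ω, A ω, Y ω)) = (μ.map X).prod (μ.map (fun ω => (A ω, Y ω))) :=
    hmap
  rw [e1, hmap']
  rw [hmap'] at hFint
  haveI : IsProbabilityMeasure (μ.map X) := Measure.isProbabilityMeasure_map hXm.aemeasurable
  haveI : IsProbabilityMeasure (μ.map (fun ω => (A ω, Y ω))) :=
    Measure.isProbabilityMeasure_map hWm.aemeasurable
  rw [integral_prod_symm _ hFint]
  have hinner : ∀ w : ℝ × ℝ, ∫ x, F (x, w) ∂(μ.map X) =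
      w.2 * ∫ ω, Ψ (w.1 + X ω) ∂μ := by
    intro w
    have hm : Measurable (fun x : ℝ => Ψ (w.1 + x)) := hΨ.comp (measurable_const.add measurable_id)
    simp only [hF]
    rw [integral_mul_const, integral_map hXm.aemeasurable hm.aestronglyMeasurable]
    ring
  simp_rw [hinner]
  have hYw : Integrable (fun w : ℝ × ℝ => w.2) (μ.map (fun ω => (A ω, Y ω))) := by
    refine (integrable_map_measure measurable_snd.aestronglyMeasurable hWm.aemeasurable).2 ?_
    exact hYi
  have e3 : ∫ ω, Y ω ∂μ = ∫ w : ℝ × ℝ, w.2 ∂(μ.map (fun ω => (A ω, Y ω))) := by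
    rw [integral_map hWm.aemeasurable measurable_snd.aestronglyMeasurable]
  rw [e3, ← integral_const_mul]
  have hsupp : ∀ᵐ w ∂(μ.map (fun ω => (A ω, Y ω))), 0 ≤ w.2 := by
    rw [ae_map_iff hWm.aemeasurable (measurableSet_le measurable_const measurable_snd)]
    exact Eventually.of_forall hY0
  have hbd : ∀ w : ℝ × ℝ, |∫ ω, Ψ (w.1 + X ω) ∂μ| ≤ 1 := by
    intro w
    rw [abs_of_nonneg (integral_nonneg fun ω => hΨ0 _)]
    have := integral_mono_of_nonneg (μ := μ) (f := fun ω => Ψ (w.1 + X ω)) (g := fun _ => (1 : ℝ))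
      (Eventually.of_forall fun ω => hΨ0 _) (integrable_const _) (Eventually.of_forall fun ω => hΨ1 _)
    simpa using this
  refine integral_mono_of_nonneg ?_ (hYw.const_mul c) ?_
  · filter_upwards [hsupp] with w hw
    exact mul_nonneg hw (integral_nonneg fun ω => hΨ0 _)
  · filter_upwards [hsupp] with w hw
    calc w.2 * ∫ ω, Ψ (w.1 + X ω) ∂μ ≤ w.2 * c := mul_le_mul_of_nonneg_left (hc w.1) hw
      _ = c * w.2 := mul_comm _ _

end Index

variable {V : Type*} {G : SimpleGraph V}

/-- The vertices on the `x` side of the edge `p x`. -/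
def Br (G : SimpleGraph V) (p x : V) : Set V := {v | G.dist p v = G.dist x v + 1}

theorem mem_Br_self {p x : V} (h : G.Adj p x) : x ∈ Br G p x := by
  simpa [Br] using SimpleGraph.dist_eq_one_iff_adj.2 h

theorem not_mem_Br {x c : V} : x ∉ Br G x c := by
  simp [Br]

theorem Br_sub (hT : G.IsTree) {p x c : V} (hpx : G.Adj p x) (hc : G.Adj x c) (hcp : c ≠ p) :
    Br G x c ⊆ Br G p x := by
  intro v hv
  have hv' : G.dist x v = G.dist c v + 1 := hv
  show G.dist p v = G.dist x v + 1
  rw [SimpleGraph.dist_comm (u := x) (v := v), SimpleGraph.dist_comm (u := c) (v := v)] at hv'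
  rw [SimpleGraph.dist_comm (u := p) (v := v), SimpleGraph.dist_comm (u := x) (v := v)]
  rcases dist_adj hT (o := v) hpx with h | h
  · exfalso
    exact hcp (parent_unique hT (o := v) hc hpx.symm (by omega) (by omega))
  · exact h

theorem Br_disjoint (hT : G.IsTree) {x c c' : V} (hc : G.Adj x c) (hc' : G.Adj x c') (hne : c ≠ c') :
    Disjoint (Br G x c) (Br G x c') := by
  rw [Set.disjoint_left]
  intro v hv hv'
  have h1 : G.dist x v = G.dist c v + 1 := hv
  have h2 : G.dist x v = G.dist c' v + 1 := hv'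
  rw [SimpleGraph.dist_comm (u := x) (v := v), SimpleGraph.dist_comm (u := c) (v := v)] at h1
  rw [SimpleGraph.dist_comm (u := x) (v := v), SimpleGraph.dist_comm (u := c') (v := v)] at h2
  exact hne (parent_unique hT (o := v) hc hc' (by omega) (by omega))

/-- The coordinates used by the cavity field at `x` away from `p`. -/
def cI (G : SimpleGraph V) (p x : V) : Set (V ⊕ V) :=
  Sum.inr '' Br G p x ∪ Sum.inl '' (Br G p x \ {x})

/-- The coordinates of the whole branch. -/
def jI (G : SimpleGraph V) (p x : V) : Set (V ⊕ V) :=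
  Sum.inr '' Br G p x ∪ Sum.inl '' Br G p x

theorem cI_sub_jI (p x : V) : cI G p x ⊆ jI G p x := by
  apply Set.union_subset_union_right
  exact Set.image_mono Set.sdiff_subset

theorem jI_sub_cI (hT : G.IsTree) {p x c : V} (hpx : G.Adj p x) (hc : G.Adj x c) (hcp : c ≠ p) :
    jI G x c ⊆ cI G p x := by
  have hsub := Br_sub hT hpx hc hcp
  apply Set.union_subset_union
  · exact Set.image_mono hsub
  · apply Set.image_mono
    intro v hv
    refine ⟨hsub hv, ?_⟩
    rintro rfl
    exact not_mem_Br hv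

theorem inl_mem_jI {x c : V} (hc : G.Adj x c) : Sum.inl c ∈ jI G x c :=
  Or.inr ⟨c, mem_Br_self hc, rfl⟩

theorem inl_not_mem_cI {x c : V} : Sum.inl c ∉ cI G x c := by
  rintro (⟨v, -, hv⟩ | ⟨v, hv, hv2⟩)
  · simp at hv
  · have : v = c := by simpa using hv2
    subst this
    exact hv.2 rfl

theorem inr_mem_cI {p x : V} (h : G.Adj p x) : Sum.inr x ∈ cI G p x :=
  Or.inl ⟨x, mem_Br_self h, rfl⟩

theorem inr_not_mem_jI {x c : V} : Sum.inr x ∉ jI G x c := by
  rintro (⟨v, hv, hv2⟩ | ⟨v, -, hv⟩)
  · have : v = x := by simpa using hv2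
    subst this
    exact not_mem_Br hv
  · simp at hv

theorem jI_disjoint (hT : G.IsTree) {x c c' : V} (hc : G.Adj x c) (hc' : G.Adj x c') (hne : c ≠ c') :
    Disjoint (jI G x c) (jI G x c') := by
  have hd := Br_disjoint hT hc hc' hne
  rw [Set.disjoint_left] at hd ⊢
  rintro i (⟨v, hv, rfl⟩ | ⟨v, hv, rfl⟩) (⟨w, hw, hw2⟩ | ⟨w, hw, hw2⟩)
  · have : w = v := by simpa using hw2
    subst this
    exact hd hv hw
  · simp at hw2
  · simp at hw2
  · have : w = v := by simpa using hw2
    subst this
    exact hd hv hw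

/-- The sign of the edge into `c`. -/
def eps (ω : V ⊕ V → ℝ) (c : V) : ℝ := if 0 < ω (Sum.inl c) then 1 else -1

theorem eps_sq (ω : V ⊕ V → ℝ) (c : V) : eps ω c ^ 2 = 1 := by
  unfold eps
  split_ifs <;> norm_num

theorem abs_eps (ω : V ⊕ V → ℝ) (c : V) : |eps ω c| = 1 := by
  unfold eps
  split_ifs <;> norm_num

theorem eps_meas {J : Set (V ⊕ V)} {c : V} (h : Sum.inl c ∈ J) :
    Measurable[mS J] (fun ω : V ⊕ V → ℝ => eps ω c) := by
  unfold eps
  refine Measurable.ite ?_ measurable_const measurable_const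
  have h1 : Measurable[mS J] (fun ω : V ⊕ V → ℝ => ω (Sum.inl c)) := coord_meas h
  exact h1 measurableSet_Ioi

section Cavity

variable [G.LocallyFinite] (θ : ℝ)

/-- The cavity field in the relative frame, to depth `n`. -/
def eta (G : SimpleGraph V) [G.LocallyFinite] (θ : ℝ) : ℕ → V → V → (V ⊕ V → ℝ) → ℝ
  | 0, _, x, ω => ω (Sum.inr x)
  | n + 1, p, x, ω =>
      ω (Sum.inr x) + ∑ c ∈ (G.neighborFinset x).erase p, eps ω c * phi θ (eta G θ n x c ω)

/-- The shell masses of the tree below a directed edge. -/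
def shell (G : SimpleGraph V) [G.LocallyFinite] (θ : ℝ) : ℕ → ℕ → V → V → (V ⊕ V → ℝ) → ℝ
  | _, 0, _, _, _ => 1
  | 0, _ + 1, _, _, _ => 0
  | n + 1, l + 1, p, x, ω =>
      ∑ c ∈ (G.neighborFinset x).erase p,
        θ ^ 2 * (gg θ (eta G θ n x c ω) ^ 2 * shell G θ n l x c ω)

theorem mem_erase_adj {x p c : V} (h : c ∈ (G.neighborFinset x).erase p) : G.Adj x c :=
  (SimpleGraph.mem_neighborFinset _ _ _).1 (Finset.mem_of_mem_erase h)

theorem eta_meas (hT : G.IsTree) (n : ℕ) : ∀ {p x : V}, G.Adj p x →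
    Measurable[mS (cI G p x)] (eta G θ n p x) := by
  induction n with
  | zero =>
    intro p x h
    exact coord_meas (inr_mem_cI h)
  | succ n ih =>
    intro p x h
    have h1 : Measurable[mS (cI G p x)] (fun ω : V ⊕ V → ℝ => ω (Sum.inr x)) :=
      coord_meas (inr_mem_cI h)
    refine Measurable.add h1 ?_
    refine Finset.measurable_fun_sum _ fun c hc => ?_
    have hc1 := mem_erase_adj hc
    have hc2 : c ≠ p := Finset.ne_of_mem_erase hc
    have hsub := jI_sub_cI hT h hc1 hc2
    have h2 : Measurable[mS (cI G p x)] (fun ω : V ⊕ V → ℝ => eps ω c) :=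
      eps_meas (hsub (inl_mem_jI hc1))
    have h3 : Measurable[mS (cI G p x)] (eta G θ n x c) :=
      (ih hc1).mono (mS_mono ((cI_sub_jI x c).trans hsub)) le_rfl
    exact h2.mul ((measurable_phi θ).comp h3)

theorem eta_meas' (hT : G.IsTree) (n : ℕ) {p x : V} (h : G.Adj p x) : Measurable (eta G θ n p x) :=
  (eta_meas θ hT n h).mono (mS_le _) le_rfl

theorem shell_meas (hT : G.IsTree) (n l : ℕ) : ∀ {p x : V}, G.Adj p x →
    Measurable[mS (cI G p x)] (shell G θ n l p x) := by
  induction n generalizing l with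
  | zero =>
    intro p x _
    cases l with
    | zero => exact measurable_const
    | succ l => exact measurable_const
  | succ n ih =>
    intro p x h
    cases l with
    | zero => exact measurable_const
    | succ l =>
      have e : shell G θ (n + 1) (l + 1) p x = fun ω => ∑ c ∈ (G.neighborFinset x).erase p,
          θ ^ 2 * (gg θ (eta G θ n x c ω) ^ 2 * shell G θ n l x c ω) := by
        funext ω
        rw [shell]
      rw [e]
      refine Finset.measurable_fun_sum _ fun c hc => ?_
      have hc1 := mem_erase_adj hc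
      have hc2 : c ≠ p := Finset.ne_of_mem_erase hc
      have hsub := jI_sub_cI hT h hc1 hc2
      have h3 : Measurable[mS (cI G p x)] (eta G θ n x c) :=
        (eta_meas θ hT n hc1).mono (mS_mono ((cI_sub_jI x c).trans hsub)) le_rfl
      have h4 : Measurable[mS (cI G p x)] (shell G θ n l x c) :=
        (ih l hc1).mono (mS_mono ((cI_sub_jI x c).trans hsub)) le_rfl
      exact measurable_const.mul ((((measurable_gg θ).comp h3).pow_const 2).mul h4)

theorem shell_meas' (hT : G.IsTree) (n l : ℕ) {p x : V} (h : G.Adj p x) :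
    Measurable (shell G θ n l p x) :=
  (shell_meas θ hT n l h).mono (mS_le _) le_rfl

variable {θ}

theorem shell_nonneg (n l : ℕ) (p x : V) (ω : V ⊕ V → ℝ) : 0 ≤ shell G θ n l p x ω := by
  induction n generalizing l p x with
  | zero =>
    cases l with
    | zero => simp [shell]
    | succ l => simp [shell]
  | succ n ih =>
    cases l with
    | zero => simp [shell]
    | succ l =>
      rw [shell]
      exact Finset.sum_nonneg fun c _ => mul_nonneg (sq_nonneg _) (mul_nonneg (sq_nonneg _) (ih l x c))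

/-- The size of the shell masses: `r = (d - 1) θ ²`. -/
theorem shell_le_pow (hθ0 : 0 ≤ θ) (hθ1 : θ < 1) {d : ℕ} (hreg : G.IsRegularOfDegree d) (n l : ℕ) :
    ∀ {p x : V}, G.Adj p x → ∀ ω, shell G θ n l p x ω ≤ (((d : ℝ) - 1) * θ ^ 2) ^ l := by
  have hd1 : ∀ {p x : V}, G.Adj p x → 1 ≤ d := by
    intro p x h
    rw [← hreg x]
    exact (G.degree_pos_iff_exists_adj x).2 ⟨p, h.symm⟩
  induction n generalizing l with
  | zero =>
    intro p x h ω
    have hd := hd1 h
    have hd' : (1 : ℝ) ≤ d := by exact_mod_cast hd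
    have h0 : 0 ≤ ((d : ℝ) - 1) * θ ^ 2 := mul_nonneg (by linarith) (sq_nonneg _)
    cases l with
    | zero => simp [shell]
    | succ l =>
      simp only [shell]
      positivity
  | succ n ih =>
    intro p x h ω
    cases l with
    | zero => simp [shell]
    | succ l =>
      rw [shell]
      have hcard := card_erase_nbr hreg h
      have hterm : ∀ c ∈ (G.neighborFinset x).erase p,
          θ ^ 2 * (gg θ (eta G θ n x c ω) ^ 2 * shell G θ n l x c ω) ≤
            θ ^ 2 * (((d : ℝ) - 1) * θ ^ 2) ^ l := by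
        intro c hc
        have hc1 := mem_erase_adj hc
        apply mul_le_mul_of_nonneg_left _ (sq_nonneg _)
        have h1 : gg θ (eta G θ n x c ω) ^ 2 ≤ 1 :=
          pow_le_one₀ (gg_nonneg hθ0 hθ1 _) (gg_le_one hθ0 hθ1 _)
        have h2 := ih l hc1 ω
        have h3 := shell_nonneg (G := G) (θ := θ) n l x c ω
        calc gg θ (eta G θ n x c ω) ^ 2 * shell G θ n l x c ω
            ≤ 1 * shell G θ n l x c ω := mul_le_mul_of_nonneg_right h1 h3
          _ ≤ _ := by rw [one_mul]; exact h2
      refine (Finset.sum_le_sum hterm).trans (le_of_eq ?_)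
      rw [Finset.sum_const, nsmul_eq_mul, hcard, pow_succ]
      ring

end Cavity

end Vale.Agent.Lib.P161S
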