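import Vale.Agent.Lib.P161S.Peel

/-! Hoeffding bound for iterated sums over disjoint branches, and the tail of the shell masses. -/

open MeasureTheory Finset Filter Topology ProbabilityTheory
open scoped Classical ENNReal NNReal

noncomputable section

namespace Vale.Agent.Lib.P161S

open Vale.Agent.Lib.P161 Vale.Agent.Lib.P161E

section Prod

variable {I : Type*} {P : I → Measure ℝ} [∀ i, IsProbabilityMeasure (P i)]

/-- Products of functions of disjoint sets of coordinates. -/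
theorem integral_prod_mS {ι : Type*} (Z : Finset ι) {J : ι → Set I}
    (hd : ∀ a ∈ Z, ∀ b ∈ Z, a ≠ b → Disjoint (J a) (J b)) {g : ι → (I → ℝ) → ℝ}
    (hg : ∀ a ∈ Z, Measurable[mS (J a)] (g a)) :
    ∫ ω, ∏ a ∈ Z, g a ω ∂(Measure.infinitePi P) =
      ∏ a ∈ Z, ∫ ω, g a ω ∂(Measure.infinitePi P) := by
  induction Z using Finset.induction_on with
  | empty => simp
  | insert b Z hb ih =>
    have hd' : ∀ a ∈ Z, ∀ c ∈ Z, a ≠ c → Disjoint (J a) (J c) := fun a ha c hc =>
      hd a (Finset.mem_insert_of_mem ha) c (Finset.mem_insert_of_mem hc)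
    have hg' : ∀ a ∈ Z, Measurable[mS (J a)] (g a) := fun a ha => hg a (Finset.mem_insert_of_mem ha)
    simp_rw [Finset.prod_insert hb]
    rw [← ih hd' hg']
    set U : Set I := ⋃ a ∈ Z, J a with hU
    have hdU : Disjoint (J b) U := by
      rw [hU, Set.disjoint_iUnion₂_right]
      intro a ha
      refine hd b (Finset.mem_insert_self _ _) a (Finset.mem_insert_of_mem ha) ?_
      rintro rfl
      exact hb ha
    have hm : Measurable[mS U] (fun ω => ∏ a ∈ Z, g a ω) := by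
      refine Finset.measurable_fun_prod _ fun a ha => ?_
      exact (hg' a ha).mono (mS_mono (Set.subset_biUnion_of_mem (u := J) ha)) le_rfl
    exact integral_mul_mS hdU (hg b (Finset.mem_insert_self _ _)) hm

end Prod

/-- Hoeffding's lemma for `[0,1]` valued variables, in the form of a moment generating function
bound with an upper bound for the mean. -/
theorem mgf_unit {Ω : Type*} [MeasurableSpace Ω] {μ : Measure Ω} [IsProbabilityMeasure μ]
    {Y : Ω → ℝ} (hY : Measurable Y) (h0 : ∀ ω, 0 ≤ Y ω) (h1 : ∀ ω, Y ω ≤ 1) {m : ℝ}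
    (hm : ∫ ω, Y ω ∂μ ≤ m) {s : ℝ} (hs : 0 ≤ s) :
    ∫ ω, Real.exp (s * Y ω) ∂μ ≤ Real.exp (s * m + s ^ 2 / 8) := by
  have hsub := hasSubgaussianMGF_of_mem_Icc (μ := μ) (X := Y) (a := 0) (b := 1) hY.aemeasurable
    (Eventually.of_forall fun ω => ⟨h0 ω, h1 ω⟩)
  have hbd := hsub.mgf_le s
  unfold mgf at hbd
  set e := ∫ ω, Y ω ∂μ with he
  have h2 : ∫ ω, Real.exp (s * Y ω) ∂μ = Real.exp (s * e) * ∫ ω, Real.exp (s * (Y ω - e)) ∂μ := by
    rw [← integral_const_mul]
    congr 1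
    funext ω
    rw [← Real.exp_add]
    congr 1
    ring
  rw [h2]
  have h3 : ((‖(1 : ℝ) - 0‖₊ / 2) ^ 2 : ℝ≥0) = 1 / 4 := by
    simp only [sub_zero, nnnorm_one]
    norm_num
  have hbd' : ∫ ω, Real.exp (s * (Y ω - e)) ∂μ ≤ Real.exp (1 / 4 * s ^ 2 / 2) := by
    have h4 := hbd
    rw [h3] at h4
    simpa using h4
  have h5 : Real.exp (s * e) ≤ Real.exp (s * m) := Real.exp_le_exp.2 (mul_le_mul_of_nonneg_left hm hs)
  have h6 : 0 ≤ ∫ ω, Real.exp (s * (Y ω - e)) ∂μ := integral_nonneg fun ω => (Real.exp_pos _).le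
  calc Real.exp (s * e) * ∫ ω, Real.exp (s * (Y ω - e)) ∂μ
      ≤ Real.exp (s * m) * Real.exp (1 / 4 * s ^ 2 / 2) :=
        mul_le_mul h5 hbd' h6 (Real.exp_pos _).le
    _ = Real.exp (s * m + s ^ 2 / 8) := by
        rw [← Real.exp_add]
        congr 1
        ring

variable {V : Type*} {G : SimpleGraph V} [G.LocallyFinite] {θ : ℝ}
  {P : V ⊕ V → Measure ℝ} [∀ i, IsProbabilityMeasure (P i)]

/-- Functions of directed edges that depend only on the branch below the edge. -/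
def IsBranchFn (G : SimpleGraph V) (f : V → V → (V ⊕ V → ℝ) → ℝ) : Prop :=
  ∀ {a b : V}, G.Adj a b → Measurable[mS (cI G a b)] (f a b)

theorem opU_apply {Ω : Type*} (f : V → V → Ω → ℝ) (p x : V) (ω : Ω) :
    opU G f p x ω = ∑ c ∈ (G.neighborFinset x).erase p, f x c ω := by
  unfold opU
  rw [Finset.sum_apply]

theorem IsBranchFn.iter (hT : G.IsTree) {f : V → V → (V ⊕ V → ℝ) → ℝ} (hf : IsBranchFn G f)
    (J : ℕ) : IsBranchFn G ((opU G)^[J] f) := by
  induction J with
  | zero =>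
    intro a b h
    simpa using hf h
  | succ J ih =>
    intro a b h
    rw [Function.iterate_succ_apply']
    have e : opU G ((opU G)^[J] f) a b =
        fun ω => ∑ c ∈ (G.neighborFinset b).erase a, (opU G)^[J] f b c ω := by
      funext ω
      exact opU_apply _ _ _ _
    rw [e]
    refine Finset.measurable_fun_sum _ fun c hc => ?_
    have hc1 := mem_erase_adj hc
    have hc2 : c ≠ a := Finset.ne_of_mem_erase hc
    exact (ih hc1).mono (mS_mono ((cI_sub_jI b c).trans (jI_sub_cI hT h hc1 hc2))) le_rfl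

section Iter

variable {d : ℕ} (hT : G.IsTree) (hreg : G.IsRegularOfDegree d)
  {f : V → V → (V ⊕ V → ℝ) → ℝ} (hf : IsBranchFn G f)
  (h0 : ∀ {a b : V}, G.Adj a b → ∀ ω, 0 ≤ f a b ω) (h1 : ∀ {a b : V}, G.Adj a b → ∀ ω, f a b ω ≤ 1)
  {m : ℝ} (hm : ∀ {a b : V}, G.Adj a b → ∫ ω, f a b ω ∂(Measure.infinitePi P) ≤ m)

include h0 in
theorem iterU_nonneg (J : ℕ) : ∀ {a b : V}, G.Adj a b → ∀ ω, 0 ≤ (opU G)^[J] f a b ω := by
  induction J with
  | zero =>
    intro a b h ω
    simpa using h0 h ω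
  | succ J ih =>
    intro a b h ω
    rw [Function.iterate_succ_apply', opU_apply]
    exact Finset.sum_nonneg fun c hc => ih (mem_erase_adj hc) ω

include hreg h1 in
theorem iterU_le (J : ℕ) : ∀ {a b : V}, G.Adj a b → ∀ ω,
    (opU G)^[J] f a b ω ≤ ((d : ℝ) - 1) ^ J := by
  induction J with
  | zero =>
    intro a b h ω
    simpa using h1 h ω
  | succ J ih =>
    intro a b h ω
    rw [Function.iterate_succ_apply', opU_apply]
    refine (Finset.sum_le_sum fun c hc => ih (mem_erase_adj hc) ω).trans (le_of_eq ?_)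
    rw [Finset.sum_const, nsmul_eq_mul, card_erase_nbr hreg h, pow_succ]
    ring

include hT hreg hf h0 h1 hm in
/-- The moment generating function of the iterated sum: independence over branches. -/
theorem iterU_mgf {s : ℝ} (hs : 0 ≤ s) (J : ℕ) : ∀ {a b : V}, G.Adj a b →
    ∫ ω, Real.exp (s * (opU G)^[J] f a b ω) ∂(Measure.infinitePi P) ≤
      Real.exp (((d : ℝ) - 1) ^ J * (s * m + s ^ 2 / 8)) := by
  induction J with
  | zero =>
    intro a b h
    simp only [Function.iterate_zero, id_eq, pow_zero, one_mul]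
    exact mgf_unit ((hf h).mono (mS_le _) le_rfl) (h0 h) (h1 h) (hm h) hs
  | succ J ih =>
    intro a b h
    set Z := (G.neighborFinset b).erase a with hZ
    have e : ∀ ω, Real.exp (s * (opU G)^[J + 1] f a b ω) =
        ∏ c ∈ Z, Real.exp (s * (opU G)^[J] f b c ω) := by
      intro ω
      rw [Function.iterate_succ_apply', opU_apply, Finset.mul_sum, Real.exp_sum]
    simp_rw [e]
    have hdis : ∀ u ∈ Z, ∀ v ∈ Z, u ≠ v → Disjoint (jI G b u) (jI G b v) := fun u hu v hv hne =>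
      jI_disjoint hT (mem_erase_adj hu) (mem_erase_adj hv) hne
    have hmeas : ∀ c ∈ Z, Measurable[mS (jI G b c)]
        (fun ω => Real.exp (s * (opU G)^[J] f b c ω)) := by
      intro c hc
      have h2 : Measurable[mS (jI G b c)] ((opU G)^[J] f b c) :=
        (hf.iter hT J (mem_erase_adj hc)).mono (mS_mono (cI_sub_jI b c)) le_rfl
      exact (h2.const_mul s).exp
    rw [integral_prod_mS Z hdis hmeas]
    have hb : ∀ c ∈ Z, ∫ ω, Real.exp (s * (opU G)^[J] f b c ω) ∂(Measure.infinitePi P) ≤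
        Real.exp (((d : ℝ) - 1) ^ J * (s * m + s ^ 2 / 8)) := fun c hc => ih (mem_erase_adj hc)
    refine (Finset.prod_le_prod (fun c _ => integral_nonneg fun ω => (Real.exp_pos _).le) hb).trans
      (le_of_eq ?_)
    rw [Finset.prod_const, ← Real.exp_nat_mul]
    congr 1
    rw [card_erase_nbr hreg h, pow_succ]
    ring

include hT hreg hf h0 h1 hm in
/-- The Hoeffding bound. -/
theorem iterU_tail (J : ℕ) {η : ℝ} (hη : 0 ≤ η) {a b : V} (h : G.Adj a b) :
    (Measure.infinitePi P).real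
        {ω | ((d : ℝ) - 1) ^ J * (m + η) ≤ (opU G)^[J] f a b ω} ≤
      Real.exp (-(2 * ((d : ℝ) - 1) ^ J * η ^ 2)) := by
  set μ := Measure.infinitePi P with hμ
  have hY : Measurable ((opU G)^[J] f a b) := (hf.iter hT J h).mono (mS_le _) le_rfl
  have hb0 := iterU_nonneg h0 J h
  have hb1 := iterU_le hreg h1 J h
  have hs : (0 : ℝ) ≤ 4 * η := by positivity
  have hint : Integrable (fun ω => Real.exp (4 * η * (opU G)^[J] f a b ω)) μ := by
    refine Integrable.of_bound ((hY.const_mul _).exp).aestronglyMeasurable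
      (Real.exp (4 * η * ((d : ℝ) - 1) ^ J)) (Eventually.of_forall fun ω => ?_)
    rw [Real.norm_eq_abs, abs_of_pos (Real.exp_pos _)]
    exact Real.exp_le_exp.2 (mul_le_mul_of_nonneg_left (hb1 ω) hs)
  have h1' := measure_ge_le_exp_mul_mgf (X := (opU G)^[J] f a b) (μ := μ)
    (((d : ℝ) - 1) ^ J * (m + η)) hs hint
  refine h1'.trans ?_
  have h2 := iterU_mgf (P := P) hT hreg hf h0 h1 hm hs J h
  unfold mgf
  calc Real.exp (-(4 * η) * (((d : ℝ) - 1) ^ J * (m + η))) *
        ∫ ω, Real.exp (4 * η * (opU G)^[J] f a b ω) ∂μ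
      ≤ Real.exp (-(4 * η) * (((d : ℝ) - 1) ^ J * (m + η))) *
        Real.exp (((d : ℝ) - 1) ^ J * (4 * η * m + (4 * η) ^ 2 / 8)) :=
        mul_le_mul_of_nonneg_left h2 (Real.exp_pos _).le
    _ = _ := by
        rw [← Real.exp_add]
        congr 1
        ring

end Iter

section Shell

variable {d : ℕ} (hθ0 : 0 ≤ θ) (hθ1 : θ < 1)

include hθ0 hθ1 in
theorem shell_le_iter (n l J : ℕ) : ∀ {p x : V}, G.Adj p x → ∀ ω,
    shell G θ (n + J) (l + J) p x ω ≤ θ ^ (2 * J) * (opU G)^[J] (shell G θ n l) p x ω := by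
  have hgsq : ∀ u, gg θ u ^ 2 ≤ 1 := fun u => pow_le_one₀ (gg_nonneg hθ0 hθ1 _) (gg_le_one hθ0 hθ1 _)
  induction J with
  | zero =>
    intro p x _ ω
    simp
  | succ J ih =>
    intro p x h ω
    rw [Function.iterate_succ_apply', opU_apply]
    have e : shell G θ (n + (J + 1)) (l + (J + 1)) p x ω =
        ∑ c ∈ (G.neighborFinset x).erase p,
          θ ^ 2 * (gg θ (eta G θ (n + J) x c ω) ^ 2 * shell G θ (n + J) (l + J) x c ω) := by
      rw [← add_assoc, ← add_assoc, shell]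
    rw [e, Finset.mul_sum]
    refine Finset.sum_le_sum fun c hc => ?_
    have hc1 := mem_erase_adj hc
    have h2 := ih hc1 ω
    have h3 := shell_nonneg (G := G) (θ := θ) (n + J) (l + J) x c ω
    have h4 : gg θ (eta G θ (n + J) x c ω) ^ 2 * shell G θ (n + J) (l + J) x c ω ≤
        shell G θ (n + J) (l + J) x c ω := by
      calc _ ≤ 1 * shell G θ (n + J) (l + J) x c ω := mul_le_mul_of_nonneg_right (hgsq _) h3
        _ = _ := one_mul _
    have h5 : θ ^ (2 * (J + 1)) = θ ^ 2 * θ ^ (2 * J) := by ring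
    rw [h5, mul_assoc]
    apply mul_le_mul_of_nonneg_left _ (sq_nonneg _)
    exact h4.trans h2

variable (hT : G.IsTree) (hreg : G.IsRegularOfDegree d)
  (hr : ((d : ℝ) - 1) * θ ^ 2 ≤ 1)

include hθ0 hθ1 hT hreg hr in
/-- The tail of the shell masses. -/
theorem shell_tail (n l J : ℕ) {m η : ℝ} (hη : 0 ≤ η)
    (hm : ∀ {a b : V}, G.Adj a b → ∫ ω, shell G θ n l a b ω ∂(Measure.infinitePi P) ≤ m)
    {p x : V} (h : G.Adj p x) :
    (Measure.infinitePi P).real {ω | m + η ≤ shell G θ (n + J) (l + J) p x ω} ≤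
      Real.exp (-(2 * ((d : ℝ) - 1) ^ J * η ^ 2)) := by
  set μ := Measure.infinitePi P with hμ
  have hf : IsBranchFn G (shell G θ n l) := fun {a b} h => shell_meas θ hT n l h
  have hd1 : (1 : ℝ) ≤ d := by
    have : 1 ≤ d := by
      rw [← hreg x]
      exact (G.degree_pos_iff_exists_adj x).2 ⟨p, h.symm⟩
    exact_mod_cast this
  have hr0 : 0 ≤ ((d : ℝ) - 1) * θ ^ 2 := mul_nonneg (by linarith) (sq_nonneg _)
  have h0 : ∀ {a b : V}, G.Adj a b → ∀ ω, 0 ≤ shell G θ n l a b ω := fun _ ω => shell_nonneg _ _ _ _ ω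
  have h1 : ∀ {a b : V}, G.Adj a b → ∀ ω, shell G θ n l a b ω ≤ 1 := fun hab ω =>
    (shell_le_pow hθ0 hθ1 hreg n l hab ω).trans (pow_le_one₀ hr0 hr)
  have htail := iterU_tail (P := P) hT hreg hf h0 h1 hm J hη h
  refine le_trans ?_ htail
  have hmfin : ∀ (s : Set (V ⊕ V → ℝ)), μ s ≠ ⊤ := fun s => measure_ne_top μ s
  apply measureReal_mono _ (hmfin _)
  intro ω hω
  have hω' : m + η ≤ shell G θ (n + J) (l + J) p x ω := hω
  show ((d : ℝ) - 1) ^ J * (m + η) ≤ (opU G)^[J] (shell G θ n l) p x ω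
  have h2 := shell_le_iter hθ0 hθ1 n l J h ω
  have hN : 0 ≤ ((d : ℝ) - 1) ^ J := pow_nonneg (by linarith) _
  have hY0 := iterU_nonneg (f := shell G θ n l) h0 J h ω
  have h3 : ((d : ℝ) - 1) ^ J * θ ^ (2 * J) ≤ 1 := by
    rw [pow_mul, ← mul_pow]
    exact pow_le_one₀ hr0 hr
  calc ((d : ℝ) - 1) ^ J * (m + η) ≤ ((d : ℝ) - 1) ^ J * shell G θ (n + J) (l + J) p x ω :=
        mul_le_mul_of_nonneg_left hω' hN
    _ ≤ ((d : ℝ) - 1) ^ J * (θ ^ (2 * J) * (opU G)^[J] (shell G θ n l) p x ω) :=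
        mul_le_mul_of_nonneg_left h2 hN
    _ = (((d : ℝ) - 1) ^ J * θ ^ (2 * J)) * (opU G)^[J] (shell G θ n l) p x ω := by ring
    _ ≤ 1 * (opU G)^[J] (shell G θ n l) p x ω := mul_le_mul_of_nonneg_right h3 hY0
    _ = _ := one_mul _

end Shell

end Vale.Agent.Lib.P161S
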