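import Vale.Agent.Lib.P161S.Gauge

/-! First moment of the shell masses: peeling along the path with the help of a fresh branch. -/

open MeasureTheory Finset Filter Topology ProbabilityTheory
open scoped Classical ENNReal NNReal

noncomputable section

namespace Vale.Agent.Lib.P161S

open Vale.Agent.Lib.P161 Vale.Agent.Lib.P161E

/-- The constant in the peeling step. -/
def c0 (θ : ℝ) : ℝ := (1 - θ ^ 2) ^ 2 * cT (uMax θ) * (θ ^ 2 / 4)

theorem c0_nonneg {θ : ℝ} (h0 : 0 ≤ θ) (h1 : θ < 1) : 0 ≤ c0 θ := by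
  have := cT_pos (uMax θ)
  unfold c0
  positivity

theorem c0_pos {θ : ℝ} (h0 : 0 < θ) (h1 : θ < 1) : 0 < c0 θ := by
  have h2 := cT_pos (uMax θ)
  have h3 : 0 < 1 - θ ^ 2 := by nlinarith
  unfold c0
  positivity

theorem cT_le_one (u : ℝ) : cT u ≤ 1 := by
  have h1 : cT u ≤ Real.tanh 1 ^ 2 / (u ^ 2 + 1) := min_le_left _ _
  have h2 : Real.tanh 1 ^ 2 / (u ^ 2 + 1) ≤ 1 := by
    rw [div_le_one (by positivity)]
    have := tanh_sq_lt_one 1
    nlinarith [sq_nonneg u]
  linarith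

theorem c0_le_one {θ : ℝ} (h0 : 0 ≤ θ) (h1 : θ < 1) : c0 θ ≤ 1 := by
  have h2 := cT_pos (uMax θ)
  have h3 := cT_le_one (uMax θ)
  have h4 : θ ^ 2 ≤ 1 := by nlinarith
  have h5 : (1 - θ ^ 2) ^ 2 ≤ 1 := by nlinarith [sq_nonneg θ]
  have h6 : θ ^ 2 / 4 ≤ 1 := by linarith
  have h7 : 0 ≤ θ ^ 2 / 4 := by positivity
  have h8 : 0 ≤ (1 - θ ^ 2) ^ 2 := sq_nonneg _
  unfold c0
  calc (1 - θ ^ 2) ^ 2 * cT (uMax θ) * (θ ^ 2 / 4) ≤ 1 * 1 * 1 := by gcongr
    _ = 1 := by norm_num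

variable {V : Type*} {G : SimpleGraph V} [G.LocallyFinite] {θ : ℝ}
  {P : V ⊕ V → Measure ℝ} [∀ i, IsProbabilityMeasure (P i)]

section Message

variable (hθ0 : 0 ≤ θ) (hθ1 : θ < 1) (hT : G.IsTree)
  (hE : ∀ c, ∫ ω, eps ω c ∂(Measure.infinitePi P) = θ)
include hθ0 hθ1 hT hE

/-- Adding a fresh message: the path factor has definite mean below one. -/
theorem fresh_avg {x c : V} (hc : G.Adj x c) (n : ℕ) (a : ℝ) :
    ∫ ω, gg θ (a + eps ω c * phi θ (eta G θ n x c ω)) ^ 2 ∂(Measure.infinitePi P) ≤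
      1 - c0 θ * ∫ ω, Real.tanh (eta G θ n x c ω) ^ 2 ∂(Measure.infinitePi P) := by
  set μ := Measure.infinitePi P with hμ
  set η := eta G θ n x c with hη
  have hηm : Measurable η := eta_meas' θ hT n hc
  have hεm0 : Measurable (fun ω : V ⊕ V → ℝ => eps ω c) :=
    (eps_meas (J := {Sum.inl c}) (c := c) rfl).mono (mS_le _) le_rfl
  set f : (V ⊕ V → ℝ) → ℝ := fun ω => phi θ (η ω) with hf
  have hfm : Measurable f := (measurable_phi θ).comp hηm
  set X : (V ⊕ V → ℝ) → ℝ := fun ω => eps ω c * f ω with hX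
  have hXm : Measurable X := hεm0.mul hfm
  have hu := uMax_nonneg (θ := θ) hθ0
  have hfb : ∀ ω, |f ω| ≤ uMax θ := fun ω => abs_phi_le hθ0 hθ1 _
  have hXb : ∀ ω, |X ω| ≤ uMax θ := by
    intro ω
    simp only [hX, abs_mul, abs_eps, one_mul]
    exact hfb ω
  have hfi : Integrable f μ := Integrable.of_bound hfm.aestronglyMeasurable _
    (Eventually.of_forall fun ω => by simpa using hfb ω)
  have hf2i : Integrable (fun ω => f ω ^ 2) μ := Integrable.of_bound (hfm.pow_const 2).aestronglyMeasurable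
    (uMax θ ^ 2) (Eventually.of_forall fun ω => by
      rw [Real.norm_eq_abs, abs_of_nonneg (sq_nonneg _), ← sq_abs]
      exact pow_le_pow_left₀ (abs_nonneg _) (hfb ω) 2)
  -- moments of `X`
  have hX2 : ∫ ω, X ω ^ 2 ∂μ = ∫ ω, f ω ^ 2 ∂μ := by
    congr 1
    funext ω
    simp only [hX, mul_pow, eps_sq, one_mul]
  have hX1 : ∫ ω, X ω ∂μ = θ * ∫ ω, f ω ∂μ := by
    have hd : Disjoint ({Sum.inl c} : Set (V ⊕ V)) (cI G x c) := by
      rw [Set.disjoint_singleton_left]
      exact inl_not_mem_cI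
    have h1 : Measurable[mS {Sum.inl c}] (fun ω : V ⊕ V → ℝ => eps ω c) := eps_meas rfl
    have h2 : Measurable[mS (cI G x c)] f := (measurable_phi θ).comp (eta_meas θ hT n hc)
    have := integral_mul_mS (P := P) hd h1 h2
    rw [hE c] at this
    exact this
  have hcs : (∫ ω, f ω ∂μ) ^ 2 ≤ ∫ ω, f ω ^ 2 ∂μ := by
    have h1 : 0 ≤ ∫ ω, (f ω - ∫ ω', f ω' ∂μ) ^ 2 ∂μ := integral_nonneg fun ω => sq_nonneg _
    have e : ∀ ω, (f ω - ∫ ω', f ω' ∂μ) ^ 2 =
        f ω ^ 2 - 2 * (∫ ω', f ω' ∂μ) * f ω + (∫ ω', f ω' ∂μ) ^ 2 := fun ω => by ring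
    simp_rw [e] at h1
    have i2 : Integrable (fun ω => 2 * (∫ ω', f ω' ∂μ) * f ω) μ := hfi.const_mul _
    have e1 := integral_add (hf2i.sub i2) (integrable_const ((∫ ω', f ω' ∂μ) ^ 2))
    have e2 := integral_sub hf2i i2
    simp only [Pi.sub_apply] at e1 e2
    rw [e1, e2, integral_const_mul] at h1
    simp only [integral_const, probReal_univ, one_smul] at h1
    nlinarith
  have hvar : (1 - θ ^ 2) * (θ ^ 2 / 4) * ∫ ω, Real.tanh (η ω) ^ 2 ∂μ ≤
      ∫ ω, X ω ^ 2 ∂μ - (∫ ω, X ω ∂μ) ^ 2 := by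
    rw [hX2, hX1, mul_pow]
    have h3 : (θ ^ 2 / 4) * ∫ ω, Real.tanh (η ω) ^ 2 ∂μ ≤ ∫ ω, f ω ^ 2 ∂μ := by
      rw [← integral_const_mul]
      refine integral_mono_of_nonneg (Eventually.of_forall fun ω => by positivity) hf2i
        (Eventually.of_forall fun ω => ?_)
      have h4 := half_le_abs_phi hθ0 hθ1 (η ω)
      have h5 : (θ * |Real.tanh (η ω)| / 2) ^ 2 ≤ |phi θ (η ω)| ^ 2 :=
        pow_le_pow_left₀ (by positivity) h4 2
      rw [sq_abs] at h5
      have h6 : (θ * |Real.tanh (η ω)| / 2) ^ 2 = θ ^ 2 / 4 * Real.tanh (η ω) ^ 2 := by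
        rw [div_pow, mul_pow, sq_abs]
        ring
      rw [h6] at h5
      exact h5
    have h4 : 0 ≤ θ ^ 2 := sq_nonneg θ
    have h5 : θ ^ 2 ≤ 1 := by nlinarith
    have h6 : θ ^ 2 * (∫ ω, f ω ∂μ) ^ 2 ≤ θ ^ 2 * ∫ ω, f ω ^ 2 ∂μ :=
      mul_le_mul_of_nonneg_left hcs h4
    have h7 : (1 - θ ^ 2) * ((θ ^ 2 / 4) * ∫ ω, Real.tanh (η ω) ^ 2 ∂μ) ≤
        (1 - θ ^ 2) * ∫ ω, f ω ^ 2 ∂μ :=
      mul_le_mul_of_nonneg_left h3 (by linarith)
    nlinarith
  have hav := tanh_sq_avg (ν := μ) hXm hu hXb a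
  have hmono : ∫ ω, gg θ (a + X ω) ^ 2 ∂μ ≤
      ∫ ω, (1 - (1 - θ ^ 2) * Real.tanh (a + X ω) ^ 2) ∂μ := by
    have hi1 : Integrable (fun ω => Real.tanh (a + X ω) ^ 2) μ :=
      Integrable.of_bound ((measurable_tanh.comp (measurable_const.add hXm)).pow_const 2).aestronglyMeasurable 1
        (Eventually.of_forall fun ω => by
          rw [Real.norm_eq_abs, abs_of_nonneg (sq_nonneg _)]
          exact (tanh_sq_lt_one _).le)
    refine integral_mono_of_nonneg (Eventually.of_forall fun ω => sq_nonneg _)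
      ((integrable_const _).sub (hi1.const_mul _)) (Eventually.of_forall fun ω => ?_)
    exact gg_sq_le hθ0 hθ1 _
  have hi1 : Integrable (fun ω => Real.tanh (a + X ω) ^ 2) μ :=
    Integrable.of_bound ((measurable_tanh.comp (measurable_const.add hXm)).pow_const 2).aestronglyMeasurable 1
      (Eventually.of_forall fun ω => by
        rw [Real.norm_eq_abs, abs_of_nonneg (sq_nonneg _)]
        exact (tanh_sq_lt_one _).le)
  have e3 : ∫ ω, (1 - (1 - θ ^ 2) * Real.tanh (a + X ω) ^ 2) ∂μ =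
      1 - (1 - θ ^ 2) * ∫ ω, Real.tanh (a + X ω) ^ 2 ∂μ := by
    rw [integral_sub (integrable_const _) (hi1.const_mul _), integral_const_mul]
    simp
  rw [e3] at hmono
  refine hmono.trans ?_
  have hcT := cT_pos (uMax θ)
  have h8 : 0 ≤ 1 - θ ^ 2 := by nlinarith
  have h9 : c0 θ * ∫ ω, Real.tanh (η ω) ^ 2 ∂μ ≤
      (1 - θ ^ 2) * ∫ ω, Real.tanh (a + X ω) ^ 2 ∂μ := by
    have h10 : cT (uMax θ) * ((1 - θ ^ 2) * (θ ^ 2 / 4) * ∫ ω, Real.tanh (η ω) ^ 2 ∂μ) ≤
        cT (uMax θ) * (∫ ω, X ω ^ 2 ∂μ - (∫ ω, X ω ∂μ) ^ 2) :=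
      mul_le_mul_of_nonneg_left hvar hcT.le
    have h11 := mul_le_mul_of_nonneg_left (h10.trans hav) h8
    refine le_trans (le_of_eq ?_) h11
    unfold c0
    ring
  linarith

/-- The peeling step. -/
theorem peel_step {p x c c' : V} (hpx : G.Adj p x) (hc : G.Adj x c) (hc' : G.Adj x c')
    (hcp' : c' ≠ p) (hcc' : c ≠ c') (n : ℕ) {Y : (V ⊕ V → ℝ) → ℝ}
    (hY : Measurable[mS (cI G x c)] Y) (hY0 : ∀ ω, 0 ≤ Y ω)
    (hYi : Integrable Y (Measure.infinitePi P)) :
    ∫ ω, gg θ (eta G θ (n + 1) p x ω) ^ 2 * Y ω ∂(Measure.infinitePi P) ≤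
      (1 - c0 θ * ∫ ω, Real.tanh (eta G θ n x c' ω) ^ 2 ∂(Measure.infinitePi P)) *
        ∫ ω, Y ω ∂(Measure.infinitePi P) := by
  set Z := (G.neighborFinset x).erase p with hZ
  have hc'Z : c' ∈ Z := Finset.mem_erase.2 ⟨hcp', by simpa using hc'⟩
  set X : (V ⊕ V → ℝ) → ℝ := fun ω => eps ω c' * phi θ (eta G θ n x c' ω) with hX
  set A : (V ⊕ V → ℝ) → ℝ := fun ω => ω (Sum.inr x) +
    ∑ b ∈ Z.erase c', eps ω b * phi θ (eta G θ n x b ω) with hA
  have hsplit : ∀ ω, eta G θ (n + 1) p x ω = A ω + X ω := by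
    intro ω
    simp only [eta, hA, hX]
    rw [← hZ, ← Finset.add_sum_erase Z _ hc'Z]
    ring
  have hXm : Measurable[mS (jI G x c')] X := by
    have h1 : Measurable[mS (jI G x c')] (fun ω : V ⊕ V → ℝ => eps ω c') :=
      eps_meas (inl_mem_jI hc')
    have h2 : Measurable[mS (jI G x c')] (eta G θ n x c') :=
      (eta_meas θ hT n hc').mono (mS_mono (cI_sub_jI x c')) le_rfl
    exact h1.mul ((measurable_phi θ).comp h2)
  have hdisj : ∀ b, G.Adj x b → b ≠ c' → jI G x b ⊆ (jI G x c')ᶜ := by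
    intro b hb hne
    exact Set.disjoint_left.1 (jI_disjoint hT hb hc' hne)
  have hAm : Measurable[mS (jI G x c')ᶜ] A := by
    have h1 : Measurable[mS (jI G x c')ᶜ] (fun ω : V ⊕ V → ℝ => ω (Sum.inr x)) :=
      coord_meas inr_not_mem_jI
    refine Measurable.add h1 ?_
    refine Finset.measurable_fun_sum _ fun b hb => ?_
    have hbZ : b ∈ Z := Finset.mem_of_mem_erase hb
    have hb1 : G.Adj x b := mem_erase_adj hbZ
    have hb2 : b ≠ c' := Finset.ne_of_mem_erase hb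
    have hsub := hdisj b hb1 hb2
    have h2 : Measurable[mS (jI G x c')ᶜ] (fun ω : V ⊕ V → ℝ => eps ω b) :=
      eps_meas (hsub (inl_mem_jI hb1))
    have h3 : Measurable[mS (jI G x c')ᶜ] (eta G θ n x b) :=
      (eta_meas θ hT n hb1).mono (mS_mono ((cI_sub_jI x b).trans hsub)) le_rfl
    exact h2.mul ((measurable_phi θ).comp h3)
  have hYm : Measurable[mS (jI G x c')ᶜ] Y :=
    hY.mono (mS_mono ((cI_sub_jI x c).trans (hdisj c hc hcc'))) le_rfl
  have hΨ : Measurable (fun u : ℝ => gg θ u ^ 2) := (measurable_gg θ).pow_const 2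
  have key := integral_indep_avg (P := P) (disjoint_compl_right (a := jI G x c')) hXm hAm hYm hY0 hYi hΨ
    (fun u => sq_nonneg _) (fun u => pow_le_one₀ (gg_nonneg hθ0 hθ1 _) (gg_le_one hθ0 hθ1 _))
    (c := 1 - c0 θ * ∫ ω, Real.tanh (eta G θ n x c' ω) ^ 2 ∂(Measure.infinitePi P))
    (fun a => fresh_avg hθ0 hθ1 hT hE hc' n a)
  refine le_trans (le_of_eq ?_) key
  congr 1
  funext ω
  rw [hsplit]

end Message

/-- The bound for the mean shell mass. -/
def Bnd (r c : ℝ) (q : ℕ → ℝ) : ℕ → ℕ → ℝ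
  | _, 0 => 1
  | 0, _ + 1 => 0
  | n + 1, l + 1 => r * (1 - c * q n) * Bnd r c q n l

section First

variable {d : ℕ} (hθ0 : 0 ≤ θ) (hθ1 : θ < 1) (hT : G.IsTree) (hreg : G.IsRegularOfDegree d)
  (hd : 3 ≤ d) (hE : ∀ c, ∫ ω, eps ω c ∂(Measure.infinitePi P) = θ) {q : ℕ → ℝ}
  (hq : ∀ n p x, G.Adj p x →
    q n ≤ ∫ ω, Real.tanh (eta G θ n p x ω) ^ 2 ∂(Measure.infinitePi P))
  (hq1 : ∀ n, q n ≤ 1)
include hθ0 hθ1 hT hreg hd hE hq hq1

theorem exists_third {p x c : V} (hc : c ∈ (G.neighborFinset x).erase p) (hpx : G.Adj p x) :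
    ∃ c', G.Adj x c' ∧ c' ≠ p ∧ c ≠ c' := by
  have hcard := card_erase_nbr hreg hpx
  have hd' : (3 : ℝ) ≤ d := by exact_mod_cast hd
  have h2 : 1 < ((G.neighborFinset x).erase p).card := by
    have : (1 : ℝ) < ((G.neighborFinset x).erase p).card := by rw [hcard]; linarith
    exact_mod_cast this
  obtain ⟨c', hc', hne⟩ := Finset.exists_mem_ne h2 c
  exact ⟨c', mem_erase_adj hc', Finset.ne_of_mem_erase hc', hne.symm⟩

/-- Peeling gives the first moment bound. -/
theorem peel_bound (n l : ℕ) : ∀ {p x : V}, G.Adj p x →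
    ∫ ω, gg θ (eta G θ n p x ω) ^ 2 * shell G θ n l p x ω ∂(Measure.infinitePi P) ≤
      Bnd (((d : ℝ) - 1) * θ ^ 2) (c0 θ) q n l := by
  set μ := Measure.infinitePi P with hμ
  have hgsq : ∀ u, gg θ u ^ 2 ≤ 1 := fun u => pow_le_one₀ (gg_nonneg hθ0 hθ1 _) (gg_le_one hθ0 hθ1 _)
  have hl0 : ∀ m {p x : V}, G.Adj p x → ∫ ω, gg θ (eta G θ m p x ω) ^ 2 * (1 : ℝ) ∂μ ≤ 1 := by
    intro m p x h
    have hm : Measurable (fun ω => gg θ (eta G θ m p x ω) ^ 2 * (1 : ℝ)) :=
      (((measurable_gg θ).comp (eta_meas' θ hT m h)).pow_const 2).mul measurable_const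
    have := integral_mono_of_nonneg (μ := μ) (f := fun ω => gg θ (eta G θ m p x ω) ^ 2 * (1 : ℝ))
      (g := fun _ => (1 : ℝ)) (Eventually.of_forall fun ω => by positivity) (integrable_const _)
      (Eventually.of_forall fun ω => by
        simpa using hgsq _)
    simpa using this
  induction n generalizing l with
  | zero =>
    intro p x h
    cases l with
    | zero =>
      simp only [shell, Bnd]
      exact hl0 0 h
    | succ l =>
      simp [shell, Bnd]
  | succ n ih =>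
    intro p x h
    cases l with
    | zero =>
      simp only [shell, Bnd]
      exact hl0 _ h
    | succ l =>
      simp only [Bnd]
      have hc0 := c0_nonneg hθ0 hθ1
      have hfac : 0 ≤ 1 - c0 θ * q n := by
        have h1 := c0_le_one hθ0 hθ1
        have h2 := hq1 n
        by_cases h3 : 0 ≤ q n
        · nlinarith
        · push Not at h3
          nlinarith
      set Z := (G.neighborFinset x).erase p with hZ
      have hYint : ∀ c ∈ Z, Integrable
          (fun ω => gg θ (eta G θ n x c ω) ^ 2 * shell G θ n l x c ω) μ := by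
        intro c hc
        have hc1 := mem_erase_adj hc
        have hm : Measurable (fun ω => gg θ (eta G θ n x c ω) ^ 2 * shell G θ n l x c ω) :=
          (((measurable_gg θ).comp (eta_meas' θ hT n hc1)).pow_const 2).mul (shell_meas' θ hT n l hc1)
        refine Integrable.of_bound hm.aestronglyMeasurable (((((d : ℝ) - 1) * θ ^ 2) ^ l))
          (Eventually.of_forall fun ω => ?_)
        have h1 := shell_le_pow hθ0 hθ1 hreg n l hc1 ω
        have h2 := shell_nonneg (G := G) (θ := θ) n l x c ω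
        rw [Real.norm_eq_abs, abs_of_nonneg (mul_nonneg (sq_nonneg _) h2)]
        calc _ ≤ 1 * shell G θ n l x c ω := mul_le_mul_of_nonneg_right (hgsq _) h2
          _ ≤ _ := by rw [one_mul]; exact h1
      have hterm : ∀ c ∈ Z, ∫ ω, gg θ (eta G θ (n + 1) p x ω) ^ 2 *
          (θ ^ 2 * (gg θ (eta G θ n x c ω) ^ 2 * shell G θ n l x c ω)) ∂μ ≤
          θ ^ 2 * ((1 - c0 θ * q n) * Bnd (((d : ℝ) - 1) * θ ^ 2) (c0 θ) q n l) := by
        intro c hc
        have hc1 := mem_erase_adj hc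
        obtain ⟨c', hc'1, hc'2, hc'3⟩ := exists_third hθ0 hθ1 hT hreg hd hE hq hq1 hc h
        have hYm : Measurable[mS (cI G x c)]
            (fun ω => gg θ (eta G θ n x c ω) ^ 2 * shell G θ n l x c ω) :=
          (((measurable_gg θ).comp (eta_meas θ hT n hc1)).pow_const 2).mul (shell_meas θ hT n l hc1)
        have hstep := peel_step hθ0 hθ1 hT hE h hc1 hc'1 hc'2 hc'3 n hYm
          (fun ω => mul_nonneg (sq_nonneg _) (shell_nonneg _ _ _ _ _)) (hYint c hc)
        have e : ∀ ω, gg θ (eta G θ (n + 1) p x ω) ^ 2 *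
            (θ ^ 2 * (gg θ (eta G θ n x c ω) ^ 2 * shell G θ n l x c ω)) =
            θ ^ 2 * (gg θ (eta G θ (n + 1) p x ω) ^ 2 *
              (gg θ (eta G θ n x c ω) ^ 2 * shell G θ n l x c ω)) := fun ω => by ring
        simp_rw [e]
        rw [integral_const_mul]
        apply mul_le_mul_of_nonneg_left _ (sq_nonneg _)
        refine hstep.trans ?_
        have hih := ih l hc1
        have hint0 : 0 ≤ ∫ ω, gg θ (eta G θ n x c ω) ^ 2 * shell G θ n l x c ω ∂μ :=
          integral_nonneg fun ω => mul_nonneg (sq_nonneg _) (shell_nonneg _ _ _ _ _)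
        have hq' := hq n x c' hc'1
        calc (1 - c0 θ * ∫ ω, Real.tanh (eta G θ n x c' ω) ^ 2 ∂μ) *
              ∫ ω, gg θ (eta G θ n x c ω) ^ 2 * shell G θ n l x c ω ∂μ
            ≤ (1 - c0 θ * q n) * ∫ ω, gg θ (eta G θ n x c ω) ^ 2 * shell G θ n l x c ω ∂μ := by
              apply mul_le_mul_of_nonneg_right _ hint0
              have := mul_le_mul_of_nonneg_left hq' hc0
              linarith
          _ ≤ _ := mul_le_mul_of_nonneg_left hih hfac
      have hm2 : Measurable (fun ω => gg θ (eta G θ (n + 1) p x ω) ^ 2) :=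
        ((measurable_gg θ).comp (eta_meas' θ hT (n + 1) h)).pow_const 2
      have hint2 : ∀ c ∈ Z, Integrable (fun ω => gg θ (eta G θ (n + 1) p x ω) ^ 2 *
          (θ ^ 2 * (gg θ (eta G θ n x c ω) ^ 2 * shell G θ n l x c ω))) μ := by
        intro c hc
        refine Integrable.bdd_mul (c := 1) ((hYint c hc).const_mul _) hm2.aestronglyMeasurable
          (Eventually.of_forall fun ω => ?_)
        rw [Real.norm_eq_abs, abs_of_nonneg (sq_nonneg _)]
        exact hgsq _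
      have e : ∀ ω, gg θ (eta G θ (n + 1) p x ω) ^ 2 * shell G θ (n + 1) (l + 1) p x ω =
          ∑ c ∈ Z, gg θ (eta G θ (n + 1) p x ω) ^ 2 *
            (θ ^ 2 * (gg θ (eta G θ n x c ω) ^ 2 * shell G θ n l x c ω)) := by
        intro ω
        rw [shell, Finset.mul_sum]
      simp_rw [e]
      rw [integral_finset_sum _ hint2]
      refine (Finset.sum_le_sum hterm).trans (le_of_eq ?_)
      rw [Finset.sum_const, nsmul_eq_mul, card_erase_nbr hreg h]
      ring

/-- The first moment of the shell mass. -/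
theorem shell_mean (n l : ℕ) {p x : V} (h : G.Adj p x) :
    ∫ ω, shell G θ (n + 1) (l + 1) p x ω ∂(Measure.infinitePi P) ≤
      ((d : ℝ) - 1) * θ ^ 2 * Bnd (((d : ℝ) - 1) * θ ^ 2) (c0 θ) q n l := by
  set μ := Measure.infinitePi P with hμ
  have hgsq : ∀ u, gg θ u ^ 2 ≤ 1 := fun u => pow_le_one₀ (gg_nonneg hθ0 hθ1 _) (gg_le_one hθ0 hθ1 _)
  set Z := (G.neighborFinset x).erase p with hZ
  have hYint : ∀ c ∈ Z, Integrable
      (fun ω => θ ^ 2 * (gg θ (eta G θ n x c ω) ^ 2 * shell G θ n l x c ω)) μ := by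
    intro c hc
    have hc1 := mem_erase_adj hc
    have hm : Measurable (fun ω => gg θ (eta G θ n x c ω) ^ 2 * shell G θ n l x c ω) :=
      (((measurable_gg θ).comp (eta_meas' θ hT n hc1)).pow_const 2).mul (shell_meas' θ hT n l hc1)
    refine Integrable.const_mul ?_ _
    refine Integrable.of_bound hm.aestronglyMeasurable (((((d : ℝ) - 1) * θ ^ 2) ^ l))
      (Eventually.of_forall fun ω => ?_)
    have h1 := shell_le_pow hθ0 hθ1 hreg n l hc1 ω
    have h2 := shell_nonneg (G := G) (θ := θ) n l x c ω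
    rw [Real.norm_eq_abs, abs_of_nonneg (mul_nonneg (sq_nonneg _) h2)]
    calc _ ≤ 1 * shell G θ n l x c ω := mul_le_mul_of_nonneg_right (hgsq _) h2
      _ ≤ _ := by rw [one_mul]; exact h1
  have e : ∀ ω, shell G θ (n + 1) (l + 1) p x ω =
      ∑ c ∈ Z, θ ^ 2 * (gg θ (eta G θ n x c ω) ^ 2 * shell G θ n l x c ω) := by
    intro ω
    rw [shell]
  simp_rw [e]
  rw [integral_finset_sum _ hYint]
  have hterm : ∀ c ∈ Z, ∫ ω, θ ^ 2 * (gg θ (eta G θ n x c ω) ^ 2 * shell G θ n l x c ω) ∂μ ≤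
      θ ^ 2 * Bnd (((d : ℝ) - 1) * θ ^ 2) (c0 θ) q n l := by
    intro c hc
    rw [integral_const_mul]
    exact mul_le_mul_of_nonneg_left (peel_bound hθ0 hθ1 hT hreg hd hE hq hq1 n l (mem_erase_adj hc))
      (sq_nonneg _)
  refine (Finset.sum_le_sum hterm).trans (le_of_eq ?_)
  rw [Finset.sum_const, nsmul_eq_mul, card_erase_nbr hreg h]
  ring

end First

theorem Bnd_eq_zero (r c : ℝ) (q : ℕ → ℝ) (n : ℕ) : ∀ l, n < l → Bnd r c q n l = 0 := by
  induction n with
  | zero =>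
    intro l hl
    obtain ⟨m, rfl⟩ : ∃ m, l = m + 1 := ⟨l - 1, by omega⟩
    rfl
  | succ n ih =>
    intro l hl
    obtain ⟨m, rfl⟩ : ∃ m, l = m + 1 := ⟨l - 1, by omega⟩
    simp only [Bnd]
    rw [ih m (by omega), mul_zero]

/-- Exponential decay of the bound. -/
theorem Bnd_le_pow {r c a : ℝ} {q : ℕ → ℝ} (hr0 : 0 ≤ r) (hr : r ≤ 1) {R : ℕ} (ha0 : 0 ≤ a)
    (ha1 : a ≤ 1) (hq0 : ∀ n, 0 ≤ 1 - c * q n) (hq1 : ∀ n, 0 ≤ c * q n)
    (hq : ∀ n, R ≤ n → a ≤ c * q n) (n l : ℕ) :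
    Bnd r c q n l ≤ (1 - a) ^ (l - R) := by
  induction n generalizing l with
  | zero =>
    cases l with
    | zero => simp [Bnd]
    | succ l =>
      simp only [Bnd]
      exact pow_nonneg (by linarith) _
  | succ n ih =>
    cases l with
    | zero => simp [Bnd]
    | succ l =>
      simp only [Bnd]
      have hih := ih l
      have ha' : 0 ≤ 1 - a := by linarith
      by_cases hn : R ≤ n
      · have h1 : 1 - c * q n ≤ 1 - a := by linarith [hq n hn]
        have h2 : r * (1 - c * q n) ≤ 1 - a := by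
          have := mul_le_mul hr h1 (hq0 n) zero_le_one
          linarith
        have hb : 0 ≤ Bnd r c q n l ∨ Bnd r c q n l ≤ 0 := le_total 0 _
        have h3 : 0 ≤ r * (1 - c * q n) := mul_nonneg hr0 (hq0 n)
        have h4 : (1 - a) ^ (l - R) * (1 - a) ≤ (1 - a) ^ (l + 1 - R) := by
          rw [← pow_succ]
          exact pow_le_pow_of_le_one ha' (by linarith) (by omega)
        rcases hb with hb | hb
        · calc r * (1 - c * q n) * Bnd r c q n l ≤ (1 - a) * (1 - a) ^ (l - R) :=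
                mul_le_mul h2 hih hb ha'
            _ = (1 - a) ^ (l - R) * (1 - a) := mul_comm _ _
            _ ≤ _ := h4
        · have := mul_nonpos_of_nonneg_of_nonpos h3 hb
          exact this.trans (pow_nonneg ha' _)
      · push Not at hn
        by_cases hl : l + 1 ≤ R
        · have : l + 1 - R = 0 := by omega
          rw [this, pow_zero]
          have h5 : Bnd r c q n l ≤ 1 := by
            have := ih l
            exact this.trans (pow_le_one₀ ha' (by linarith))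
          have h6 : r * (1 - c * q n) ≤ 1 := by
            have := mul_le_mul hr (show 1 - c * q n ≤ 1 by linarith [hq1 n]) (hq0 n) zero_le_one
            linarith
          have h7 : 0 ≤ r * (1 - c * q n) := mul_nonneg hr0 (hq0 n)
          calc r * (1 - c * q n) * Bnd r c q n l ≤ r * (1 - c * q n) * 1 :=
                mul_le_mul_of_nonneg_left h5 h7
            _ ≤ 1 := by linarith
        · rw [Bnd_eq_zero r c q n l (by omega), mul_zero]
          exact pow_nonneg ha' _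

end Vale.Agent.Lib.P161S
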